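import Vale.Agent.Lib.P038.SatK.Top
import Vale.Agent.Lib.P038.Sat.All
import Vale.Agent.Lib.P038.SatK.I.A6.Main
import Vale.Agent.Lib.P038.SatK.I.M1_0.Main
import Vale.Agent.Lib.P038.SatK.I.M1_1.Main
import Vale.Agent.Lib.P038.SatK.I.M1_2.Main
import Vale.Agent.Lib.P038.SatK.I.M1_3.Main
import Vale.Agent.Lib.P038.SatK.I.M1_4.Main
import Vale.Agent.Lib.P038.SatK.I.M1_5.Main
import Vale.Agent.Lib.P038.SatK.I.M1_6.Main
import Vale.Agent.Lib.P038.SatK.I.M2_0.Main
import Vale.Agent.Lib.P038.SatK.I.M2_1.Main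
import Vale.Agent.Lib.P038.SatK.I.M2_2.Main
import Vale.Agent.Lib.P038.SatK.I.M2_3.Main
import Vale.Agent.Lib.P038.SatK.I.M2_4.Main
import Vale.Agent.Lib.P038.SatK.I.M2_5.Main
import Vale.Agent.Lib.P038.SatK.I.M2_6.Main
import Vale.Agent.Lib.P038.SatK.I.P1_0.Main
import Vale.Agent.Lib.P038.SatK.I.P2_0.Main
import Vale.Agent.Lib.P038.SatK.I.P2_1.Main
import Vale.Agent.Lib.P038.SatK.I.P3_0.Main
import Vale.Agent.Lib.P038.SatK.I.P3_1.Main
import Vale.Agent.Lib.P038.SatK.I.P3_2.Main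
import Vale.Agent.Lib.P038.SatK.I.P4_0.Main
import Vale.Agent.Lib.P038.SatK.I.P4_1.Main
import Vale.Agent.Lib.P038.SatK.I.P4_2.Main
import Vale.Agent.Lib.P038.SatK.I.P4_3.Main
import Vale.Agent.Lib.P038.SatK.I.P5_0.Main
import Vale.Agent.Lib.P038.SatK.I.P5_1.Main
import Vale.Agent.Lib.P038.SatK.I.P5_2.Main
import Vale.Agent.Lib.P038.SatK.I.P5_3.Main
import Vale.Agent.Lib.P038.SatK.I.P5_4.Main
import Vale.Agent.Lib.P038.SatK.I.P6_0.Main
import Vale.Agent.Lib.P038.SatK.I.P6_1.Main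
import Vale.Agent.Lib.P038.SatK.I.P6_2.Main
import Vale.Agent.Lib.P038.SatK.I.P6_3.Main
import Vale.Agent.Lib.P038.SatK.I.P6_4.Main
/-!
Minimum out-degree at most seven: the refutations for `k ≤ 6` assembled, together with the
theorem for `k = 7`.
-/
namespace Vale.Agent.Lib.P038.SatK
open Vale.Agent.Lib.P038.Sat

open Finset Vale.Agent.Lib.P038

variable {V : Type*} [Fintype V] {r : V → V → Prop}

theorem all_P (k m : ℕ) (hk1 : 1 ≤ k) (hk : k ≤ 6) (hm : m < k) (hne : ¬ (k = 6 ∧ m = 5)) (K : Conf)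
    (hK : Good (shP k m) (flP k m) K) : False := by
  interval_cases k <;> interval_cases m <;> first
    | exact I.P1_0.unsat K hK
    | exact I.P2_0.unsat K hK
    | exact I.P2_1.unsat K hK
    | exact I.P3_0.unsat K hK
    | exact I.P3_1.unsat K hK
    | exact I.P3_2.unsat K hK
    | exact I.P4_0.unsat K hK
    | exact I.P4_1.unsat K hK
    | exact I.P4_2.unsat K hK
    | exact I.P4_3.unsat K hK
    | exact I.P5_0.unsat K hK
    | exact I.P5_1.unsat K hK
    | exact I.P5_2.unsat K hK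
    | exact I.P5_3.unsat K hK
    | exact I.P5_4.unsat K hK
    | exact I.P6_0.unsat K hK
    | exact I.P6_1.unsat K hK
    | exact I.P6_2.unsat K hK
    | exact I.P6_3.unsat K hK
    | exact I.P6_4.unsat K hK
    | exact absurd ⟨rfl, rfl⟩ hne

theorem all_M (q c : ℕ) (hq : q = 1 ∨ q = 2) (hc : c ≤ 6) (K : Conf)
    (hK : Good (shT6 c) (flM6 q) K) : False := by
  rcases hq with rfl | rfl <;> interval_cases c
  · exact I.M1_0.unsat K hK
  · exact I.M1_1.unsat K hK
  · exact I.M1_2.unsat K hK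
  · exact I.M1_3.unsat K hK
  · exact I.M1_4.unsat K hK
  · exact I.M1_5.unsat K hK
  · exact I.M1_6.unsat K hK
  · exact I.M2_0.unsat K hK
  · exact I.M2_1.unsat K hK
  · exact I.M2_2.unsat K hK
  · exact I.M2_3.unsat K hK
  · exact I.M2_4.unsat K hK
  · exact I.M2_5.unsat K hK
  · exact I.M2_6.unsat K hK

/-- A counterexample has no vertex of out-degree at most seven. -/
theorem atMostSeven (hr : ∀ u w, r u w → ¬ r w u) (hns : ∀ u, (second r u).card < (out r u).card)
    {v : V} (hv : (out r v).card ≤ 7) : False := by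
  classical
  obtain ⟨v0, -, hmin⟩ := Finset.exists_min_image (univ : Finset V) (fun u => (out r u).card) ⟨v, mem_univ v⟩
  have hdeg : ∀ u, (out r v0).card ≤ (out r u).card := fun u => hmin u (mem_univ u)
  have h7 : (out r v0).card ≤ 7 := (hdeg v).trans hv
  have h1 : 1 ≤ (out r v0).card := by
    have := hns v0
    omega
  by_cases h6 : (out r v0).card ≤ 6
  · exact six_core all_P I.A6.unsat all_M hr hns h1 h6 hdeg rfl
  · have h77 : (out r v0).card = 7 := by omega
    rw [h77] at hdeg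
    exact Vale.Agent.Lib.P038.Sat.seven hr hns hdeg h77

end Vale.Agent.Lib.P038.SatK
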