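import Vale.Agent.Lib.P038.SatK.Sem
/-!
Every clause of the generator holds under the assignment read off a `Good` structure.
-/
noncomputable section
namespace Vale.Agent.Lib.P038.SatK
open Vale.Agent.Lib.P038.Sat

variable {S : Shape} {F : Flags} {K : Conf}

/-- The assignment of the atoms: `g = id * 256 + t` means `t ≤ cnt id`. -/
def Val (S : Shape) (K : Conf) (g : Nat) : Bool := decide (g % 256 ≤ S.cnt K (g / 256))

theorem litP {i t : Nat} (ht : t < 256) (h : t ≤ S.cnt K i) : litG (Val S K) (lp i t) = true := by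
  have e : lp i t = 2 * (i * 256 + t) := rfl
  unfold litG Val
  rw [e]
  have h1 : 2 * (i * 256 + t) % 2 = 0 := by omega
  have h2 : 2 * (i * 256 + t) / 2 = i * 256 + t := by omega
  have h3 : (i * 256 + t) % 256 = t := by omega
  have h4 : (i * 256 + t) / 256 = i := by omega
  rw [if_pos h1, h2, h3, h4]
  exact decide_eq_true h

theorem litN {i t : Nat} (ht : t < 256) (h : S.cnt K i < t) : litG (Val S K) (ln i t) = true := by
  have e : ln i t = 2 * (i * 256 + t) + 1 := rfl
  unfold litG Val
  rw [e]
  have h1 : ¬ (2 * (i * 256 + t) + 1) % 2 = 0 := by omega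
  have h2 : (2 * (i * 256 + t) + 1) / 2 = i * 256 + t := by omega
  have h3 : (i * 256 + t) % 256 = t := by omega
  have h4 : (i * 256 + t) / 256 = i := by omega
  rw [if_neg h1, h2, h3, h4]
  simp
  omega

theorem cnt_zero : S.cnt K 0 = 0 := by
  rw [Shape.cnt]; simp

theorem cnt_arc {u w : Nat} (hu : u < 22) (hw : w < 22) : S.cnt K (arcId u w) = arcN K u w := by
  rw [Shape.cnt]
  unfold arcId arcN
  have h0 : ¬ (1 + u * 22 + w = 0) := by omega
  have h1 : 1 + u * 22 + w < 485 := by omega
  have h2 : (1 + u * 22 + w - 1) / 22 = u := by omega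
  have h3 : (1 + u * 22 + w - 1) % 22 = w := by omega
  rw [if_neg h0, if_pos h1, h2, h3]

theorem cnt_y {u w : Nat} (hu : u < 22) (hw : w < 22) : S.cnt K (yId u w) = yN K u w := by
  rw [Shape.cnt]
  unfold yId yN
  have h0 : ¬ (485 + u * 22 + w = 0) := by omega
  have h1 : ¬ (485 + u * 22 + w < 485) := by omega
  have h1' : 485 + u * 22 + w < 969 := by omega
  have h2 : (485 + u * 22 + w - 485) / 22 = u := by omega
  have h3 : (485 + u * 22 + w - 485) % 22 = w := by omega
  rw [if_neg h0, if_neg h1, if_pos h1', h2, h3]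

theorem cnt_ex {x : Nat} (hx : x < 22) : S.cnt K (exId x) = K.ex x := by
  rw [Shape.cnt]
  unfold exId
  have h0 : ¬ (969 + x = 0) := by omega
  have h1 : ¬ (969 + x < 485) := by omega
  have h2 : ¬ (969 + x < 969) := by omega
  have h3 : 969 + x < 991 := by omega
  have h4 : 969 + x - 969 = x := by omega
  rw [if_neg h0, if_neg h1, if_neg h2, if_pos h3, h4]

theorem cnt_pl {x : Nat} (hx : x < 22) : S.cnt K (plId x) = K.pl x := by
  rw [Shape.cnt]
  unfold plId
  have h0 : ¬ (991 + x = 0) := by omega
  have h1 : ¬ (991 + x < 485) := by omega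
  have h2 : ¬ (991 + x < 969) := by omega
  have h3 : ¬ (991 + x < 991) := by omega
  have h4 : 991 + x < 1013 := by omega
  have h5 : 991 + x - 991 = x := by omega
  rw [if_neg h0, if_neg h1, if_neg h2, if_neg h3, if_pos h4, h5]

theorem inT_ge {p : Nat} (h : S.inT p = true) : 1013 ≤ p ∧ p < S.lim := by
  unfold Shape.inT at h
  rw [Bool.and_eq_true] at h
  exact ⟨Nat.le_of_ble_eq_true h.1, Nat.le_of_ble_eq_true h.2⟩

/-- The parts of the check of a shape. -/
structure ChkParts (S : Shape) : Prop where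
  hk : S.k ≤ 7
  hm : S.m ≤ 6
  hc : S.c ≤ 8
  wf : ∀ p, S.inT p = true → S.kidA p < p ∧ S.kidB p < p ∧ S.mx p = S.mx (S.kidA p) + S.mx (S.kidB p)
  tx : ∀ a, a ∈ S.A → (S.leaves (S.tx a)).Perm ((S.A.erase a).map (arcId a))
  ty : ∀ a, a ∈ S.A → (S.leaves (S.ty a)).Perm (S.B.map (arcId a))
  tz : ∀ b, b ∈ S.B → (S.leaves (S.tz b)).Perm ((S.B.erase b).map (arcId b))
  tF : ∀ x, x < S.n → S.present x = true →
    (S.leaves (S.tF x)).Perm ((S.dom x).map (arcId x) ++ if S.hasE x then [exId x] else [])
  tG : ∀ u, u < S.n → S.closed u = true →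
    (S.leaves (S.tG u)).Perm ((S.tgt u).map (yId u) ++ if S.hasP u then [plId u] else [])
  s0 : (S.leaves (S.sp 0)).Perm (pairsFlat (allPairs S.A))
  s1 : (S.leaves (S.sp 1)).Perm (pairsFlat (allPairs S.B))
  s2 : (S.leaves (S.sp 2)).Perm (pairsFlat (crossPairs S.A S.B))
  s3 : (S.leaves (S.sp 3)).Perm (S.A.flatMap (fun a => S.leaves (S.tF a)))
  s4 : (S.leaves (S.sp 4)).Perm (S.B.flatMap (fun b => S.leaves (S.tF b)))
  b0 : (allPairs S.A).length = S.bound 0
  b1 : (allPairs S.B).length = S.bound 1
  b2 : (crossPairs S.A S.B).length = S.bound 2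

theorem chkParts (h : S.chk = true) : ChkParts S := by
  unfold Shape.chk at h
  simp only [Bool.and_eq_true, List.all_eq_true, List.isPerm_iff, Bool.or_eq_true, Bool.not_eq_true'] at h
  obtain ⟨⟨⟨⟨⟨⟨⟨⟨⟨⟨⟨⟨⟨⟨⟨⟨hk, hm⟩, hc⟩, hw⟩, htx⟩, hty⟩, htz⟩, htF⟩, htG⟩, h0⟩, h1⟩, h2⟩, h3⟩, h4⟩, b0⟩, b1⟩, b2⟩ := h
  refine ⟨Nat.le_of_ble_eq_true hk, Nat.le_of_ble_eq_true hm, Nat.le_of_ble_eq_true hc, ?_, htx, hty, htz, ?_, ?_, h0, h1, h2, h3, h4,
    Nat.eq_of_beq_eq_true b0, Nat.eq_of_beq_eq_true b1, Nat.eq_of_beq_eq_true b2⟩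
  · intro p hp
    obtain ⟨hp1, hp2⟩ := inT_ge hp
    have := hw (p - 1013) (by rw [List.mem_range]; omega)
    have e : 1013 + (p - 1013) = p := by omega
    rw [e] at this
    obtain ⟨⟨a1, a2⟩, a3⟩ := this
    exact ⟨Nat.le_of_ble_eq_true a1, Nat.le_of_ble_eq_true a2, Nat.eq_of_beq_eq_true a3⟩
  · intro x hx hp
    rcases htF x (List.mem_range.2 hx) with h | h
    · rw [hp] at h; cases h
    · exact h
  · intro u hu hp
    rcases htG u (List.mem_range.2 hu) with h | h
    · rw [hp] at h; cases h
    · exact h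

theorem cnt_table (hP : ChkParts S) {p : Nat} (hp : S.inT p = true) :
    S.cnt K p = S.cnt K (S.kidA p) + S.cnt K (S.kidB p) := by
  obtain ⟨hp1, _⟩ := inT_ge hp
  obtain ⟨h1, h2, _⟩ := hP.wf p hp
  conv => lhs; rw [Shape.cnt]
  have h0 : ¬ (p = 0) := by omega
  have a1 : ¬ (p < 485) := by omega
  have a2 : ¬ (p < 969) := by omega
  have a3 : ¬ (p < 991) := by omega
  have a4 : ¬ (p < 1013) := by omega
  rw [if_neg h0, if_neg a1, if_neg a2, if_neg a3, if_neg a4, dif_pos ⟨h1, h2⟩]

theorem cnt_le_mx (hP : ChkParts S) (hex : ∀ x, K.ex x ≤ 7) (hpl : ∀ x, K.pl x ≤ 7) :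
    ∀ id, S.cnt K id ≤ S.mx id := by
  intro id
  induction id using Nat.strongRecOn with
  | ind id ih =>
    by_cases h0 : id = 0
    · subst h0; rw [cnt_zero]; exact Nat.zero_le _
    by_cases h1 : id < 969
    · have : S.mx id = 1 := by unfold Shape.mx; rw [if_neg h0, if_pos h1]
      rw [this, Shape.cnt, if_neg h0]
      by_cases h2 : id < 485
      · rw [if_pos h2]
        cases K.arc _ _ <;> simp
      · rw [if_neg h2, if_pos h1]
        cases K.y _ _ <;> simp
    by_cases h2 : id < 1013
    · have : S.mx id = 7 := by unfold Shape.mx; rw [if_neg h0, if_neg h1, if_pos h2]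
      rw [this, Shape.cnt, if_neg h0]
      have a1 : ¬ (id < 485) := by omega
      rw [if_neg a1, if_neg h1]
      by_cases h3 : id < 991
      · rw [if_pos h3]; exact hex _
      · rw [if_neg h3, if_pos h2]; exact hpl _
    by_cases h3 : S.inT id = true
    · rw [cnt_table hP h3]
      obtain ⟨a1, a2, a3⟩ := hP.wf id h3
      rw [a3]
      exact Nat.add_le_add (ih _ a1) (ih _ a2)
    · have hA : S.kidA id = 0 := by unfold Shape.kidA; rw [if_neg h3]
      have hB : S.kidB id = 0 := by unfold Shape.kidB; rw [if_neg h3]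
      rw [Shape.cnt, if_neg h0]
      have a1 : ¬ (id < 485) := by omega
      have a2 : ¬ (id < 991) := by omega
      rw [if_neg a1, if_neg h1, if_neg a2, if_neg h2]
      have : S.kidA id < id ∧ S.kidB id < id := by rw [hA, hB]; omega
      rw [dif_pos this, hA, hB, cnt_zero]
      exact Nat.zero_le _

theorem cnt_leavesF : ∀ (f id : Nat), id < f → S.cnt K id = sumL (S.cnt K) (S.leavesF f id) := by
  intro f
  induction f with
  | zero => intro id h; exact absurd h (Nat.not_lt_zero _)
  | succ f ih =>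
    intro id hid
    unfold Shape.leavesF
    by_cases h0 : id = 0
    · subst h0; simp [sumL, cnt_zero]
    rw [if_neg h0]
    by_cases h1 : id < 1013
    · rw [if_pos h1]; simp [sumL]
    rw [if_neg h1]
    by_cases h2 : S.kidA id < id ∧ S.kidB id < id
    · rw [if_pos h2, sumL_append, ← ih _ (by omega), ← ih _ (by omega)]
      conv => lhs; rw [Shape.cnt]
      have a1 : ¬ (id < 485) := by omega
      have a2 : ¬ (id < 969) := by omega
      have a3 : ¬ (id < 991) := by omega
      rw [if_neg h0, if_neg a1, if_neg a2, if_neg a3, if_neg h1, dif_pos h2]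
    · rw [if_neg h2]
      rw [Shape.cnt]
      have a1 : ¬ (id < 485) := by omega
      have a2 : ¬ (id < 969) := by omega
      have a3 : ¬ (id < 991) := by omega
      rw [if_neg h0, if_neg a1, if_neg a2, if_neg a3, if_neg h1, dif_neg h2]
      rfl

theorem cnt_leaves (id : Nat) : S.cnt K id = sumL (S.cnt K) (S.leaves id) :=
  cnt_leavesF _ _ (Nat.lt_succ_self id)

theorem mem_AA {a : Nat} : a ∈ S.A ↔ 1 ≤ a ∧ a ≤ S.k := by
  unfold Shape.A
  simp only [List.mem_map, List.mem_range]
  constructor
  · rintro ⟨x, hx, rfl⟩; omega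
  · intro h; exact ⟨a - 1, by omega, by omega⟩

theorem mem_listA {a : Nat} (h : a ∈ S.A) : 1 ≤ a ∧ a ≤ S.k := mem_AA.1 h

theorem inA_iff {a : Nat} : S.inA a = true ↔ a ∈ S.A := by
  rw [mem_AA]
  unfold Shape.inA
  rw [Bool.and_eq_true]
  constructor
  · intro h; exact ⟨Nat.le_of_ble_eq_true h.1, Nat.le_of_ble_eq_true h.2⟩
  · intro h; exact ⟨Nat.ble_eq_true_of_le h.1, Nat.ble_eq_true_of_le h.2⟩

theorem mem_B {b : Nat} : b ∈ S.B ↔ S.k + 1 ≤ b ∧ b < S.k + 1 + S.m := by
  unfold Shape.B
  simp only [List.mem_map, List.mem_range]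
  constructor
  · rintro ⟨x, hx, rfl⟩; omega
  · intro h; exact ⟨b - (S.k + 1), by omega, by omega⟩

theorem inB_iff {b : Nat} : S.inB b = true ↔ b ∈ S.B := by
  rw [mem_B]
  unfold Shape.inB
  rw [Bool.and_eq_true]
  constructor
  · intro h; exact ⟨Nat.le_of_ble_eq_true h.1, Nat.le_of_ble_eq_true h.2⟩
  · intro h; exact ⟨Nat.ble_eq_true_of_le h.1, Nat.ble_eq_true_of_le h.2⟩

theorem inC_iff {b : Nat} : S.inC b = true ↔ S.k + 1 + S.m ≤ b ∧ b < S.k + 1 + S.m + S.c := by
  unfold Shape.inC
  rw [Bool.and_eq_true]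
  constructor
  · intro h; exact ⟨Nat.le_of_ble_eq_true h.1, Nat.le_of_ble_eq_true h.2⟩
  · intro h; exact ⟨Nat.ble_eq_true_of_le h.1, Nat.ble_eq_true_of_le h.2⟩

theorem present_iff {x : Nat} : S.present x = true ↔ 1 ≤ x ∧ x < S.n := by
  unfold Shape.present Shape.n
  rw [Bool.or_eq_true, Bool.or_eq_true, inA_iff, inB_iff, inC_iff, mem_B]
  constructor
  · rintro ((h | h) | h)
    · have := mem_listA h; omega
    · omega
    · omega
  · intro h
    by_cases h1 : x ≤ S.k
    · left; left; exact mem_AA.2 ⟨h.1, h1⟩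
    by_cases h2 : x < S.k + 1 + S.m
    · left; right; omega
    · right; omega

theorem closed_present {u : Nat} (h : S.closed u = true) : S.present u = true := by
  unfold Shape.closed at h
  unfold Shape.present
  rw [Bool.or_eq_true, Bool.and_eq_true] at h
  rw [Bool.or_eq_true, Bool.or_eq_true]
  rcases h with h | h
  · exact Or.inl (Or.inl h)
  · exact Or.inl (Or.inr h.2)

theorem closed_hasE {u : Nat} (h : S.closed u = true) : S.hasE u = false := by
  unfold Shape.closed at h
  unfold Shape.hasE
  rw [Bool.or_eq_true, Bool.and_eq_true, inA_iff, inB_iff, mem_B] at h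
  cases hE1 : S.inC u with
  | true =>
    rw [inC_iff] at hE1
    rcases h with h | h
    · have := mem_listA h; omega
    · omega
  | false =>
    cases h3 : S.lvl3 with
    | true => simp
    | false =>
      rcases h with h | h
      · have h5 := mem_listA h
        cases hb : S.inB u with
        | false => simp
        | true =>
          rw [inB_iff, mem_B] at hb
          omega
      · rw [h3] at h; exact absurd h.1 (by simp)

theorem mem_dom_lt (hP : ChkParts S) {x w : Nat} (h : w ∈ S.dom x) : w < 22 := by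
  unfold Shape.dom at h
  have hm := hP.hm
  have hk := hP.hk
  have hc := hP.hc
  split at h
  · have h1 := List.mem_of_mem_erase h
    rw [List.mem_append, mem_B] at h1
    rcases h1 with h1 | h1
    · have := mem_listA h1; omega
    · omega
  · have h1 := List.mem_of_mem_erase h
    rw [List.mem_range] at h1
    unfold Shape.n at h1
    omega

theorem mem_tgt_lt (hP : ChkParts S) {x w : Nat} (h : w ∈ S.tgt x) : w < 22 := by
  unfold Shape.tgt at h
  have hm := hP.hm
  have hk := hP.hk
  have hc := hP.hc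
  have h1 := List.mem_of_mem_erase h
  rw [List.mem_range] at h1
  unfold Shape.n at h1
  omega

theorem mem_B_lt (hP : ChkParts S) {w : Nat} (h : w ∈ S.B) : w < 22 := by
  have hm := hP.hm
  have hk := hP.hk
  rw [mem_B] at h
  omega

theorem sum_arcs {x : Nat} (hx : x < 22) {l : List Nat} (hl : ∀ w, w ∈ l → w < 22) :
    sumL (S.cnt K) (l.map (arcId x)) = sumL (arcN K x) l := by
  rw [sumL_map]
  exact sumL_congr (fun w hw => cnt_arc hx (hl w hw))

theorem sum_ys {x : Nat} (hx : x < 22) {l : List Nat} (hl : ∀ w, w ∈ l → w < 22) :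
    sumL (S.cnt K) (l.map (yId x)) = sumL (yN K x) l := by
  rw [sumL_map]
  exact sumL_congr (fun w hw => cnt_y hx (hl w hw))

theorem cnt_tx (hP : ChkParts S) {a : Nat} (ha : a ∈ S.A) : S.cnt K (S.tx a) = sX S K a := by
  have := mem_listA ha
  have hk := hP.hk
  rw [cnt_leaves, sumL_perm _ (hP.tx a ha), sum_arcs (by omega)]
  · rfl
  · intro w hw
    have := mem_listA (List.mem_of_mem_erase hw)
    omega

theorem cnt_ty (hP : ChkParts S) {a : Nat} (ha : a ∈ S.A) : S.cnt K (S.ty a) = sY S K a := by
  have := mem_listA ha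
  have hk := hP.hk
  rw [cnt_leaves, sumL_perm _ (hP.ty a ha), sum_arcs (by omega)]
  · rfl
  · intro w hw
    exact mem_B_lt hP hw

theorem cnt_tz (hP : ChkParts S) {b : Nat} (hb : b ∈ S.B) : S.cnt K (S.tz b) = sZ S K b := by
  rw [cnt_leaves, sumL_perm _ (hP.tz b hb), sum_arcs (mem_B_lt hP hb)]
  · rfl
  · intro w hw
    exact mem_B_lt hP (List.mem_of_mem_erase hw)

theorem present_lt (hP : ChkParts S) {x : Nat} (h : S.present x = true) : x < S.n ∧ x < 22 := by
  rw [present_iff] at h
  have hm := hP.hm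
  have hk := hP.hk
  have hc := hP.hc
  unfold Shape.n at h ⊢
  omega

theorem cnt_tF (hP : ChkParts S) {x : Nat} (hx : S.present x = true) :
    S.cnt K (S.tF x) = sumL (arcN K x) (S.dom x) + (if S.hasE x then K.ex x else 0) := by
  obtain ⟨h1, h2⟩ := present_lt hP hx
  rw [cnt_leaves, sumL_perm _ (hP.tF x h1 hx), sumL_append, sum_arcs h2 (fun w hw => mem_dom_lt hP hw)]
  cases S.hasE x with
  | true => simp [sumL, cnt_ex h2]
  | false => simp [sumL]

theorem cnt_tG (hP : ChkParts S) {u : Nat} (hu : S.closed u = true) :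
    S.cnt K (S.tG u) ≤ sumL (yN K u) (S.tgt u) + K.pl u := by
  obtain ⟨h1, h2⟩ := present_lt hP (closed_present hu)
  rw [cnt_leaves, sumL_perm _ (hP.tG u h1 hu), sumL_append, sum_ys h2 (fun w hw => mem_tgt_lt hP hw)]
  cases S.hasP u with
  | true => simp [sumL, cnt_pl h2]
  | false => simp [sumL]

theorem arc_lits {u w : Nat} (hu : u < 22) (hw : w < 22) :
    (K.arc u w = true → litG (Val S K) (lp (arcId u w) 1) = true) ∧
    (K.arc u w = false → litG (Val S K) (ln (arcId u w) 1) = true) := by
  constructor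
  · intro h
    apply litP (by omega)
    rw [cnt_arc hu hw]
    simp [arcN, h]
  · intro h
    apply litN (by omega)
    rw [cnt_arc hu hw]
    simp [arcN, h]

theorem sum_pairs (hE : ∀ u w, K.arc u w = true → K.arc w u = false) :
    ∀ (p : List (Nat × Nat)), (∀ q, q ∈ p → q.1 < 22 ∧ q.2 < 22) →
      sumL (S.cnt K) (pairsFlat p) ≤ p.length := by
  intro p
  induction p with
  | nil => intro _; exact Nat.le_refl _
  | cons q p ih =>
    intro hq
    have e : pairsFlat (q :: p) = [arcId q.1 q.2, arcId q.2 q.1] ++ pairsFlat p := by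
      simp [pairsFlat]
    rw [e, sumL_append]
    have h1 := ih (fun r hr => hq r (List.mem_cons_of_mem _ hr))
    obtain ⟨a1, a2⟩ := hq q (by simp)
    simp only [sumL]
    rw [cnt_arc a1 a2, cnt_arc a2 a1]
    have h2 : arcN K q.1 q.2 + arcN K q.2 q.1 ≤ 1 := by
      unfold arcN
      cases h : K.arc q.1 q.2 with
      | false =>
        cases K.arc q.2 q.1 <;> simp
      | true =>
        rw [hE _ _ h]; simp
    simp only [List.length_cons]
    omega

theorem mem_allPairs {l : List Nat} {q : Nat × Nat} (h : q ∈ allPairs l) : q.1 ∈ l ∧ q.2 ∈ l := by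
  unfold allPairs at h
  simp only [List.mem_flatMap, List.mem_map, List.mem_filter] at h
  obtain ⟨i, hi, j, ⟨hj, _⟩, rfl⟩ := h
  exact ⟨hi, hj⟩

theorem mem_crossPairs {a b : List Nat} {q : Nat × Nat} (h : q ∈ crossPairs a b) : q.1 ∈ a ∧ q.2 ∈ b := by
  unfold crossPairs at h
  simp only [List.mem_flatMap, List.mem_map] at h
  obtain ⟨i, hi, j, hj, rfl⟩ := h
  exact ⟨hi, hj⟩

theorem sum_flat {l : List Nat} : sumL (S.cnt K) (l.flatMap (fun x => S.leaves (S.tF x))) =
    sumL (fun x => S.cnt K (S.tF x)) l := by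
  induction l with
  | nil => rfl
  | cons x l ih =>
    rw [List.flatMap_cons, sumL_append, ih]
    simp only [sumL]
    rw [← cnt_leaves]

theorem seven_le {q : Nat} {f : Nat → Nat} {l : List Nat} (h : ∀ x, x ∈ l → q ≤ f x) : q * l.length ≤ sumL f l := by
  induction l with
  | nil => simp [sumL]
  | cons x l ih =>
    simp only [sumL, List.length_cons]
    have h1 := h x (by simp)
    have h2 := ih (fun y hy => h y (List.mem_cons_of_mem _ hy))
    rw [Nat.mul_add, Nat.mul_one]
    omega

theorem length_B : S.B.length = S.m := by simp [Shape.B]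

theorem length_A : S.A.length = S.k := by simp [Shape.A]

section Clauses

variable (hP : ChkParts S) (hG : Good S F K)
include hP hG

theorem g0_sound {p i j : Nat} {c : List Nat} (h : Gen.g0 S p i j = some c) : holdsG (Val S K) c := by
  unfold Gen.g0 at h
  split at h
  · rename_i hc
    cases h
    rw [Bool.and_eq_true] at hc
    obtain ⟨h1, h2⟩ := hc
    have h2' : i + j < 255 := Nat.le_of_ble_eq_true h2
    have hs := cnt_table (K := K) hP h1
    by_cases a1 : 0 < i ∧ S.cnt K (S.kidA p) < i
    · exact ⟨ln (S.kidA p) i, by simp [a1.1], litN (by omega) a1.2⟩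
    by_cases a2 : 0 < j ∧ S.cnt K (S.kidB p) < j
    · exact ⟨ln (S.kidB p) j, by simp [a2.1], litN (by omega) a2.2⟩
    exact ⟨lp p (i + j), by simp, litP (by omega) (by omega)⟩
  · cases h

theorem g1_sound {p i j : Nat} {c : List Nat} (h : Gen.g1 S p i j = some c) : holdsG (Val S K) c := by
  unfold Gen.g1 at h
  split at h
  · rename_i hc
    cases h
    rw [Bool.and_eq_true] at hc
    obtain ⟨h1, h2⟩ := hc
    have h2' : i + j < 254 := Nat.le_of_ble_eq_true h2
    have hs := cnt_table (K := K) hP h1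
    have hmx := cnt_le_mx (K := K) hP hG.exle hG.plle
    by_cases a1 : S.cnt K p < i + j + 1
    · exact ⟨ln p (i + j + 1), by simp, litN (by omega) a1⟩
    by_cases a2 : i + 1 ≤ S.cnt K (S.kidA p)
    · have a3 := hmx (S.kidA p)
      have a4 : i + 1 ≤ S.mx (S.kidA p) := by omega
      exact ⟨lp (S.kidA p) (i + 1), by simp [a4], litP (by omega) a2⟩
    · have a5 : j + 1 ≤ S.cnt K (S.kidB p) := by omega
      have a3 := hmx (S.kidB p)
      have a4 : j + 1 ≤ S.mx (S.kidB p) := by omega
      exact ⟨lp (S.kidB p) (j + 1), by simp [a4], litP (by omega) a5⟩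
  · cases h

omit hP hG in
theorem g2_sound {id t : Nat} {c : List Nat} (h : Gen.g2 id t = some c) : holdsG (Val S K) c := by
  unfold Gen.g2 at h
  split at h
  · rename_i hc
    cases h
    have ht : t < 255 := Nat.le_of_ble_eq_true hc
    by_cases a1 : S.cnt K id < t + 1
    · exact ⟨ln id (t + 1), by simp, litN (by omega) a1⟩
    · exact ⟨lp id t, by simp, litP (by omega) (by omega)⟩
  · cases h

omit hP in
theorem g3_sound {u w : Nat} {c : List Nat} (h : Gen.g3 u w = some c) : holdsG (Val S K) c := by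
  unfold Gen.g3 at h
  split at h
  · rename_i hc
    cases h
    rw [Bool.and_eq_true] at hc
    have hu : u < 22 := Nat.le_of_ble_eq_true hc.1
    have hw : w < 22 := Nat.le_of_ble_eq_true hc.2
    cases ha : K.arc u w with
    | false => exact ⟨ln (arcId u w) 1, by simp, (arc_lits hu hw).2 ha⟩
    | true => exact ⟨ln (arcId w u) 1, by simp, (arc_lits hw hu).2 (hG.excl _ _ ha)⟩
  · cases h

omit hP in
theorem g4_sound {u t w : Nat} {c : List Nat} (h : Gen.g4 S u t w = some c) : holdsG (Val S K) c := by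
  unfold Gen.g4 at h
  split at h
  · rename_i hc
    cases h
    simp only [Bool.and_eq_true, Bool.not_eq_true'] at hc
    obtain ⟨⟨⟨hc1, hc2⟩, hc3⟩, hc4⟩ := hc
    have hu : u < 22 := Nat.le_of_ble_eq_true hc1
    have ht : t < 22 := Nat.le_of_ble_eq_true hc2
    have hw : w < 22 := Nat.le_of_ble_eq_true hc3
    have hne : u ≠ w := by
      intro e; rw [e] at hc4; simp at hc4
    cases h1 : K.arc u t with
    | false => exact ⟨ln (arcId u t) 1, by simp, (arc_lits hu ht).2 h1⟩
    | true =>
      cases h2 : K.arc t w with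
      | false => exact ⟨ln (arcId t w) 1, by simp, (arc_lits ht hw).2 h2⟩
      | true =>
        cases h3 : K.arc u w with
        | true =>
          have h4 : S.hasArc u w = true := by
            cases h5 : S.hasArc u w with
            | true => rfl
            | false =>
              by_cases h6 : S.inA u = true
              · rw [hG.noarc u w h6 h5] at h3; cases h3
              · unfold Shape.hasArc at h5
                rw [if_neg h6] at h5
                cases h5
          exact ⟨lp (arcId u w) 1, by simp [h4], (arc_lits hu hw).1 h3⟩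
        | false =>
          have h4 := hG.path u t w hne h1 h2 h3
          refine ⟨lp (yId u w) 1, by simp, litP (by omega) ?_⟩
          rw [cnt_y hu hw]
          simp [yN, h4]
  · cases h

omit hP in
theorem g5_sound {u w e : Nat} {c : List Nat} (h : Gen.g5 S u w e = some c) : holdsG (Val S K) c := by
  unfold Gen.g5 at h
  split at h
  · rename_i hc
    cases h
    simp only [Bool.and_eq_true] at hc
    obtain ⟨⟨⟨hc1, hc2⟩, hc3⟩, hc4⟩ := hc
    have hu : u < 22 := Nat.le_of_ble_eq_true hc2
    have hw : w < 22 := Nat.le_of_ble_eq_true hc3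
    have he : e < 256 := Nat.le_of_ble_eq_true hc4
    cases h1 : K.arc u w with
    | false => exact ⟨ln (arcId u w) 1, by simp, (arc_lits hu hw).2 h1⟩
    | true =>
      have h2 := hG.pdef u w hc1 h1
      by_cases h3 : K.ex w < e
      · refine ⟨ln (exId w) e, by simp, litN he ?_⟩
        rw [cnt_ex hw]; exact h3
      · refine ⟨lp (plId u) e, by simp, litP he ?_⟩
        rw [cnt_pl hu]; omega
  · cases h

theorem g6_sound {u t : Nat} {c : List Nat} (h : Gen.g6 S u t = some c) : holdsG (Val S K) c := by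
  unfold Gen.g6 at h
  split at h
  · rename_i hc
    cases h
    simp only [Bool.and_eq_true] at hc
    obtain ⟨⟨hc1, hc2⟩, hc3⟩ := hc
    have ht : t < 255 := Nat.le_of_ble_eq_true hc3
    have a1 := cnt_tG (K := K) hP hc1
    have a2 := cnt_tF (K := K) hP (closed_present hc1)
    rw [closed_hasE hc1] at a2
    simp only [Bool.false_eq_true, if_false, Nat.add_zero] at a2
    have a3 := hG.ns u hc1
    by_cases b1 : 0 < t ∧ S.cnt K (S.tG u) < t
    · exact ⟨ln (S.tG u) t, by simp [b1.1], litN (by omega) b1.2⟩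
    · have b2 : t + 1 ≤ S.cnt K (S.tF u) := by omega
      have b3 := cnt_le_mx (K := K) hP hG.exle hG.plle (S.tF u)
      have b4 : t + 1 ≤ S.mx (S.tF u) := by omega
      exact ⟨lp (S.tF u) (t + 1), by simp [b4], litP (by omega) b2⟩
  · cases h

theorem cnt_F_ge {x : Nat} (hx : S.present x = true) : S.k ≤ S.cnt K (S.tF x) := by
  rw [cnt_tF hP hx]
  exact hG.deg x hx

theorem g7_sound {x : Nat} {c : List Nat} (h : Gen.g7 S x = some c) : holdsG (Val S K) c := by
  unfold Gen.g7 at h
  split at h
  · rename_i hc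
    cases h
    simp only [Bool.and_eq_true] at hc
    obtain ⟨⟨h1, _⟩, h3⟩ := hc
    have h3' : S.k < 255 := Nat.le_of_ble_eq_true h3
    have a1 := cnt_F_ge hP hG h1
    have a2 := cnt_le_mx (K := K) hP hG.exle hG.plle (S.tF x)
    have a3 : S.k ≤ S.mx (S.tF x) := by omega
    exact ⟨lp (S.tF x) S.k, by simp [a3], litP (by omega) a1⟩
  · cases h

theorem g8_sound {i : Nat} {c : List Nat} (h : Gen.g8 S i = some c) : holdsG (Val S K) c := by
  unfold Gen.g8 at h
  split at h
  · rename_i hc
    cases h
    simp only [Bool.and_eq_true] at hc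
    have h3 : i < 3 := Nat.le_of_ble_eq_true hc.1
    have h4 : S.bound i < 255 := Nat.le_of_ble_eq_true hc.2
    refine ⟨ln (S.sp i) (S.bound i + 1), by simp, litN (by omega) ?_⟩
    have key : S.cnt K (S.sp i) ≤ S.bound i := by
      have hi : i = 0 ∨ i = 1 ∨ i = 2 := by omega
      rcases hi with rfl | rfl | rfl
      · rw [cnt_leaves, sumL_perm _ hP.s0, ← hP.b0]
        apply sum_pairs hG.excl
        intro q hq
        obtain ⟨a1, a2⟩ := mem_allPairs hq
        have := mem_listA a1
        have := mem_listA a2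
        have hk := hP.hk
        omega
      · rw [cnt_leaves, sumL_perm _ hP.s1, ← hP.b1]
        apply sum_pairs hG.excl
        intro q hq
        obtain ⟨a1, a2⟩ := mem_allPairs hq
        exact ⟨mem_B_lt hP a1, mem_B_lt hP a2⟩
      · rw [cnt_leaves, sumL_perm _ hP.s2, ← hP.b2]
        apply sum_pairs hG.excl
        intro q hq
        obtain ⟨a1, a2⟩ := mem_crossPairs hq
        have := mem_listA a1
        have hk := hP.hk
        exact ⟨by omega, mem_B_lt hP a2⟩
    omega
  · cases h

theorem g9_sound {i : Nat} {c : List Nat} (h : Gen.g9 S i = some c) : holdsG (Val S K) c := by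
  unfold Gen.g9 at h
  split at h
  · rename_i hc
    cases h
    simp only [Bool.and_eq_true, Bool.or_eq_true] at hc
    obtain ⟨h3, h4⟩ := hc
    have h4' : S.bound i < 255 := Nat.le_of_ble_eq_true h4
    have key : S.bound i ≤ S.cnt K (S.sp i) := by
      rcases h3 with h3 | h3
      · have e := Nat.eq_of_beq_eq_true h3
        subst e
        rw [cnt_leaves, sumL_perm _ hP.s3, sum_flat]
        have := seven_le (q := S.k) (f := fun x => S.cnt K (S.tF x)) (l := S.A) (fun x hx =>
          cnt_F_ge hP hG (by rw [present_iff]; have := mem_listA hx; unfold Shape.n; omega))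
        rw [length_A] at this
        simpa [Shape.bound] using this
      · have e := Nat.eq_of_beq_eq_true h3
        subst e
        rw [cnt_leaves, sumL_perm _ hP.s4, sum_flat]
        have := seven_le (q := S.k) (f := fun x => S.cnt K (S.tF x)) (l := S.B) (fun x hx =>
          cnt_F_ge hP hG (by rw [present_iff]; rw [mem_B] at hx; unfold Shape.n; omega))
        rw [length_B] at this
        simpa [Shape.bound] using this
    have a2 := cnt_le_mx (K := K) hP hG.exle hG.plle (S.sp i)
    have a3 : S.bound i ≤ S.mx (S.sp i) := by omega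
    exact ⟨lp (S.sp i) (S.bound i), by simp [a3], litP (by omega) key⟩
  · cases h

theorem g10_sound {sub i t : Nat} {c : List Nat} (h : Gen.g10 S F sub i t = some c) : holdsG (Val S K) c := by
  unfold Gen.g10 at h
  have hmx := cnt_le_mx (K := K) hP hG.exle hG.plle
  split at h
  · rename_i ht
    have ht' : t < 255 := Nat.le_of_ble_eq_true ht
    split at h
    · split at h
      · rename_i hc
        cases h
        simp only [Bool.and_eq_true, List.contains_iff_mem] at hc
        obtain ⟨⟨h1, h2⟩, h3⟩ := hc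
        rw [inA_iff] at h2 h3
        have a0 := hG.sx i h1
        rw [← cnt_tx (K := K) hP h2, ← cnt_tx (K := K) hP h3] at a0
        by_cases b1 : S.cnt K (S.tx i) < t
        · exact ⟨ln (S.tx i) t, by simp, litN (by omega) b1⟩
        · have b2 := hmx (S.tx (i + 1))
          have b3 : t ≤ S.mx (S.tx (i + 1)) := by omega
          exact ⟨lp (S.tx (i + 1)) t, by simp [b3], litP (by omega) (by omega)⟩
      · cases h
    · split at h
      · rename_i hc
        cases h
        simp only [Bool.and_eq_true, List.contains_iff_mem] at hc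
        obtain ⟨⟨h1, h2⟩, h3⟩ := hc
        rw [inB_iff] at h2 h3
        have a0 := hG.sz i h1
        rw [← cnt_tz (K := K) hP h2, ← cnt_tz (K := K) hP h3] at a0
        by_cases b1 : S.cnt K (S.tz i) < t
        · exact ⟨ln (S.tz i) t, by simp, litN (by omega) b1⟩
        · have b2 := hmx (S.tz (i + 1))
          have b3 : t ≤ S.mx (S.tz (i + 1)) := by omega
          exact ⟨lp (S.tz (i + 1)) t, by simp [b3], litP (by omega) (by omega)⟩
      · cases h
  · cases h

theorem g11_sound {a : Nat} {c : List Nat} (h : Gen.g11 S F a = some c) : holdsG (Val S K) c := by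
  unfold Gen.g11 at h
  split at h
  · rename_i hc
    cases h
    simp only [Bool.and_eq_true] at hc
    have h1 : F.minx < 255 := Nat.le_of_ble_eq_true hc.2
    have ha := inA_iff.1 hc.1
    have a0 := hG.minx a hc.1
    rw [← cnt_tx (K := K) hP ha] at a0
    have b2 := cnt_le_mx (K := K) hP hG.exle hG.plle (S.tx a)
    have b3 : F.minx ≤ S.mx (S.tx a) := by omega
    exact ⟨lp (S.tx a) F.minx, by simp [b3], litP (by omega) a0⟩
  · cases h

theorem g12_sound {a x : Nat} {c : List Nat} (h : Gen.g12 S F a x = some c) : holdsG (Val S K) c := by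
  unfold Gen.g12 at h
  split at h
  · rename_i hc
    cases h
    simp only [Bool.and_eq_true, List.contains_iff_mem] at hc
    obtain ⟨⟨⟨h1, h2⟩, h3⟩, h4⟩ := hc
    have h3' : x ≤ S.k := Nat.le_of_ble_eq_true h3
    have h4' : S.k < 255 := Nat.le_of_ble_eq_true h4
    have ha := inA_iff.1 h1
    have a0 := hG.forb a h1 x h2
    rw [← cnt_tx (K := K) hP ha, ← cnt_ty (K := K) hP ha] at a0
    have hmx := cnt_le_mx (K := K) hP hG.exle hG.plle
    have b1 := hmx (S.tx a)
    have b2 := hmx (S.ty a)
    by_cases c1 : S.cnt K (S.tx a) < x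
    · have : 0 < x := by omega
      exact ⟨ln (S.tx a) x, by simp [this], litN (by omega) c1⟩
    by_cases c2 : x + 1 ≤ S.cnt K (S.tx a)
    · have : x + 1 ≤ S.mx (S.tx a) := by omega
      exact ⟨lp (S.tx a) (x + 1), by simp [this], litP (by omega) c2⟩
    have c3 : S.cnt K (S.tx a) = x := by omega
    by_cases c4 : S.cnt K (S.ty a) < S.k - x
    · have : 0 < S.k - x := by omega
      exact ⟨ln (S.ty a) (S.k - x), by simp [this], litN (by omega) c4⟩
    · have c5 : S.k - x + 1 ≤ S.cnt K (S.ty a) := by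
        have : S.cnt K (S.ty a) ≠ S.k - x := fun e => a0 ⟨c3, e⟩
        omega
      have : S.k - x + 1 ≤ S.mx (S.ty a) := by omega
      exact ⟨lp (S.ty a) (S.k - x + 1), by simp [this], litP (by omega) c5⟩
  · cases h

omit hP in
theorem g13_sound {w : Nat} {c : List Nat} (h : Gen.g13 S F w = some c) : holdsG (Val S K) c := by
  unfold Gen.g13 at h
  split at h
  · rename_i hc
    cases h
    simp only [Bool.and_eq_true] at hc
    obtain ⟨⟨⟨h1, h2⟩, h3⟩, h4⟩ := hc
    have h2' : 2 ≤ w := Nat.le_of_ble_eq_true h2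
    have h3' : w < S.k + 1 + S.m := Nat.le_of_ble_eq_true h3
    have h4' : w < 22 := Nat.le_of_ble_eq_true h4
    have a := hG.root h1 w h2' h3'
    cases hr : F.rootPos S.k w with
    | true =>
      rw [hr] at a
      exact ⟨lp (arcId 1 w) 1, by simp [hr], (arc_lits (by omega) h4').1 a⟩
    | false =>
      rw [hr] at a
      exact ⟨ln (arcId 1 w) 1, by simp [hr], (arc_lits (by omega) h4').2 a⟩
  · cases h

theorem g14_sound {a sub : Nat} {c : List Nat} (h : Gen.g14 S F a sub = some c) : holdsG (Val S K) c := by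
  unfold Gen.g14 at h
  split at h
  · rename_i hc
    simp only [Bool.and_eq_true] at hc
    have ha := inA_iff.1 hc.2
    obtain ⟨a1, a2⟩ := hG.reg hc.1 a hc.2
    rw [← cnt_tx (K := K) hP ha] at a1
    rw [← cnt_ty (K := K) hP ha] at a2
    split at h
    · cases h; exact ⟨lp (S.tx a) 3, by simp, litP (by omega) (by omega)⟩
    split at h
    · cases h; exact ⟨ln (S.tx a) 4, by simp, litN (by omega) (by omega)⟩
    split at h
    · cases h; exact ⟨lp (S.ty a) 5, by simp, litP (by omega) (by omega)⟩
    split at h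
    · cases h; exact ⟨ln (S.ty a) 6, by simp, litN (by omega) (by omega)⟩
    · cases h
  · cases h

theorem g15_sound {x : Nat} {c : List Nat} (h : Gen.g15 S x = some c) : holdsG (Val S K) c := by
  unfold Gen.g15 at h
  split at h
  · rename_i hx
    have hx' : x < 22 := Nat.le_of_ble_eq_true hx
    split at h
    · rename_i h1
      cases h
      obtain ⟨a, ha, hat⟩ := hG.coverB x h1
      have := mem_listA ha
      have hk := hP.hk
      exact ⟨lp (arcId a x) 1, List.mem_map.2 ⟨a, ha, rfl⟩, (arc_lits (by omega) hx').1 hat⟩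
    split at h
    · rename_i h2
      cases h
      obtain ⟨b, hb, hbt⟩ := hG.coverC x h2
      exact ⟨lp (arcId b x) 1, List.mem_map.2 ⟨b, hb, rfl⟩, (arc_lits (mem_B_lt hP hb) hx').1 hbt⟩
    · cases h
  · cases h

theorem gen_sound (tag : Nat) (c : List Nat) (h : Gen.gen S F tag = some c) : holdsG (Val S K) c := by
  unfold Gen.gen at h
  dsimp only at h
  repeat' split at h
  all_goals first
    | exact g0_sound hP hG h
    | exact g1_sound hP hG h
    | exact g2_sound h
    | exact g3_sound hG h
    | exact g4_sound hG h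
    | exact g5_sound hG h
    | exact g6_sound hP hG h
    | exact g7_sound hP hG h
    | exact g8_sound hP hG h
    | exact g9_sound hP hG h
    | exact g10_sound hP hG h
    | exact g11_sound hP hG h
    | exact g12_sound hP hG h
    | exact g13_sound hG h
    | exact g14_sound hP hG h
    | exact g15_sound hP hG h

end Clauses

end Vale.Agent.Lib.P038.SatK
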