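import Mathlib
import Vale.Agent.Lib.P038.Defs
import Vale.Agent.Lib.P038.SatK.Sound
/-!
From an oriented graph with a vertex `v` of out-degree seven to a `Good` structure on indices.
-/
namespace Vale.Agent.Lib.P038.SatK
open Vale.Agent.Lib.P038.Sat

open Finset Vale.Agent.Lib.P038

variable {V : Type*} [Fintype V] {r : V → V → Prop}

theorem mem_out' {x z : V} : z ∈ out r x ↔ r x z := by
  classical
  simp [out]

theorem mem_second' {x z : V} : z ∈ second r x ↔ z ≠ x ∧ ¬ r x z ∧ ∃ u, r x u ∧ r u z := by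
  classical
  simp [second]

open Classical in
/-- The known vertices. -/
noncomputable def kn (e : ℕ → V) (n : ℕ) : Finset V := (Finset.range n).image e

open Classical in
/-- The structure on indices read off the graph. -/
noncomputable def mkConf (r : V → V → Prop) (e : ℕ → V) (n : ℕ) : Conf where
  arc i j := decide (i < n ∧ j < n ∧ r (e i) (e j))
  y u w := decide (u < n ∧ w < n ∧ e w ∈ second r (e u))
  ex x := min 7 ((out r (e x)) \ kn e n).card
  pl u := min 7 ((second r (e u)) \ kn e n).card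

/-- The way the indices enumerate the vertices around `v`. -/
structure Lay (r : V → V → Prop) (v : V) (e : ℕ → V) (k m c : ℕ) (l3 : Bool) : Prop where
  e0 : e 0 = v
  inj : ∀ i j, i < k + 1 + m + c → j < k + 1 + m + c → e i = e j → i = j
  memA : ∀ i, 1 ≤ i → i < k + 1 → e i ∈ out r v
  surA : ∀ z, z ∈ out r v → ∃ i, 1 ≤ i ∧ i < k + 1 ∧ e i = z
  memB : ∀ i, k + 1 ≤ i → i < k + 1 + m → e i ∈ second r v
  surB : ∀ z, z ∈ second r v → ∃ i, k + 1 ≤ i ∧ i < k + 1 + m ∧ e i = z
  covC : ∀ i, k + 1 + m ≤ i → i < k + 1 + m + c → ∃ j, k + 1 ≤ j ∧ j < k + 1 + m ∧ r (e j) (e i)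
  clos : l3 = true → ∀ i, k + 1 ≤ i → i < k + 1 + m → ∀ z, r (e i) z → ∃ j, j < k + 1 + m + c ∧ e j = z
  nol3 : l3 = false → c = 0

section Sums

theorem sum_bool {e : ℕ → V} {n : ℕ} (P : V → Prop) (b : ℕ → Bool)
    (hb : ∀ w, w < n → (b w = true ↔ P (e w)))
    (hinj : ∀ i j, i < n → j < n → e i = e j → i = j) [DecidableEq V] [DecidablePred P] :
    ∀ (l : List ℕ), l.Nodup → (∀ w, w ∈ l → w < n) →
      sumL (fun w => (b w).toNat) l = ((l.toFinset.image e).filter P).card := by
  intro l
  induction l with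
  | nil => intro _ _; simp [sumL]
  | cons a l ih =>
    intro hl hln
    have ha : a < n := hln a (by simp)
    have hnd := List.nodup_cons.1 hl
    have h1 := ih hnd.2 (fun w hw => hln w (List.mem_cons_of_mem _ hw))
    simp only [sumL]
    rw [h1, List.toFinset_cons, Finset.image_insert]
    have hnot : e a ∉ l.toFinset.image e := by
      intro hmem
      obtain ⟨w, hw, hwe⟩ := Finset.mem_image.1 hmem
      have hw' : w ∈ l := List.mem_toFinset.1 hw
      have := hinj w a (hln w (List.mem_cons_of_mem _ hw')) ha hwe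
      exact hnd.1 (this ▸ hw')
    by_cases hP : P (e a)
    · have hba : b a = true := (hb a ha).2 hP
      rw [Finset.filter_insert, if_pos hP, Finset.card_insert_of_notMem, hba]
      · simp; omega
      · intro hmem
        exact hnot (Finset.mem_filter.1 hmem).1
    · have hba : b a = false := by
        cases hq : b a with
        | false => rfl
        | true => exact absurd ((hb a ha).1 hq) hP
      rw [Finset.filter_insert, if_neg hP, hba]
      simp

end Sums

open Classical in
/-- Out-neighbours of `z` among the out-neighbours of `v`. -/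
noncomputable def xr (r : V → V → Prop) (v z : V) : ℕ := ((out r v).filter (r z)).card

open Classical in
/-- Out-neighbours of `z` among the second neighbours of `v`. -/
noncomputable def yr (r : V → V → Prop) (v z : V) : ℕ := ((second r v).filter (r z)).card

theorem nodup_A (S : Shape) : S.A.Nodup := by
  unfold Shape.A
  apply List.Nodup.map _ List.nodup_range
  intro a b h
  simpa using h

theorem nodup_B (S : Shape) : S.B.Nodup := by
  unfold Shape.B
  apply List.Nodup.map _ List.nodup_range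
  intro a b h
  simpa using h

theorem nodup_AB (S : Shape) : (S.A ++ S.B).Nodup := by
  rw [List.nodup_append]
  refine ⟨nodup_A S, nodup_B S, ?_⟩
  intro a ha b hb
  have h1 := mem_listA ha
  have h2 := mem_B.1 hb
  omega

theorem out_of_A {v a z : V} (hr : ∀ u w, r u w → ¬ r w u) (ha : a ∈ out r v) (h : r a z) :
    z ∈ out r v ∨ z ∈ second r v := by
  have hva := mem_out'.1 ha
  by_cases hvz : r v z
  · exact Or.inl (mem_out'.2 hvz)
  · refine Or.inr (mem_second'.2 ⟨?_, hvz, a, hva, h⟩)
    rintro rfl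
    exact hr _ _ hva h

section WithLay

variable {v : V} {e : ℕ → V} {S : Shape}

theorem irr (hr : ∀ u w, r u w → ¬ r w u) (x : V) : ¬ r x x := fun h => hr _ _ h h

theorem lay_inj (hlay : Lay r v e S.k S.m S.c S.lvl3) : ∀ i j, i < S.n → j < S.n → e i = e j → i = j :=
  hlay.inj

theorem arc_iff {x w : ℕ} (hx : x < S.n) (hw : w < S.n) :
    (mkConf r e S.n).arc x w = true ↔ r (e x) (e w) := by
  simp [mkConf, hx, hw]

theorem y_iff {x w : ℕ} (hx : x < S.n) (hw : w < S.n) :
    (mkConf r e S.n).y x w = true ↔ e w ∈ second r (e x) := by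
  simp [mkConf, hx, hw]

theorem sum_arc (hlay : Lay r v e S.k S.m S.c S.lvl3) {x : ℕ} (hx : x < S.n) [DecidableEq V]
    [DecidablePred (r (e x))] (l : List ℕ) (hl : l.Nodup) (hln : ∀ w, w ∈ l → w < S.n) :
    sumL (arcN (mkConf r e S.n) x) l = ((l.toFinset.image e).filter (r (e x))).card :=
  sum_bool (r (e x)) (fun w => (mkConf r e S.n).arc x w) (fun _ hw => arc_iff hx hw) (lay_inj hlay) l hl hln

theorem sum_y (hlay : Lay r v e S.k S.m S.c S.lvl3) {x : ℕ} (hx : x < S.n) [DecidableEq V]
    (l : List ℕ) (hl : l.Nodup) (hln : ∀ w, w ∈ l → w < S.n) :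
    sumL (yN (mkConf r e S.n) x) l = ((l.toFinset.image e).filter (· ∈ second r (e x))).card :=
  sum_bool (· ∈ second r (e x)) (fun w => (mkConf r e S.n).y x w) (fun _ hw => y_iff hx hw) (lay_inj hlay) l hl hln

theorem n_eq (S : Shape) : S.n = S.k + 1 + S.m + S.c := rfl

theorem A_lt {a : ℕ} (h : a ∈ S.A) : a < S.n := by
  have := mem_listA h
  rw [n_eq]; omega

theorem B_lt {b : ℕ} (h : b ∈ S.B) : b < S.n := by
  have := mem_B.1 h
  rw [n_eq]; omega

theorem sX_eq (hr : ∀ u w, r u w → ¬ r w u) (hlay : Lay r v e S.k S.m S.c S.lvl3) {a : ℕ} (ha : a ∈ S.A) :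
    sX S (mkConf r e S.n) a = xr r v (e a) := by
  classical
  have hA := mem_listA ha
  unfold sX xr
  rw [sum_arc hlay (A_lt ha) _ ((nodup_A S).erase a) (fun w hw => A_lt (List.mem_of_mem_erase hw))]
  congr 1
  ext z
  simp only [Finset.mem_filter, Finset.mem_image, List.mem_toFinset]
  constructor
  · rintro ⟨⟨w, hw, rfl⟩, hz⟩
    have := mem_listA (List.mem_of_mem_erase hw)
    exact ⟨hlay.memA w (by omega) (by omega), hz⟩
  · rintro ⟨hz, hrz⟩
    obtain ⟨i, h1, h2, rfl⟩ := hlay.surA z hz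
    refine ⟨⟨i, ?_, rfl⟩, hrz⟩
    have hne : i ≠ a := by
      rintro rfl
      exact irr hr _ hrz
    rw [List.mem_erase_of_ne hne]
    exact mem_AA.2 (by omega)

theorem sY_eq (hlay : Lay r v e S.k S.m S.c S.lvl3) {a : ℕ} (ha : a ∈ S.A) :
    sY S (mkConf r e S.n) a = yr r v (e a) := by
  classical
  unfold sY yr
  rw [sum_arc hlay (A_lt ha) _ (nodup_B S) (fun w hw => B_lt hw)]
  congr 1
  ext z
  simp only [Finset.mem_filter, Finset.mem_image, List.mem_toFinset]
  constructor
  · rintro ⟨⟨w, hw, rfl⟩, hz⟩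
    have := mem_B.1 hw
    exact ⟨hlay.memB w (by omega) (by omega), hz⟩
  · rintro ⟨hz, hrz⟩
    obtain ⟨i, h1, h2, rfl⟩ := hlay.surB z hz
    exact ⟨⟨i, mem_B.2 ⟨h1, h2⟩, rfl⟩, hrz⟩

theorem sZ_eq (hr : ∀ u w, r u w → ¬ r w u) (hlay : Lay r v e S.k S.m S.c S.lvl3) {b : ℕ} (hb : b ∈ S.B) :
    sZ S (mkConf r e S.n) b = yr r v (e b) := by
  classical
  unfold sZ yr
  rw [sum_arc hlay (B_lt hb) _ ((nodup_B S).erase b) (fun w hw => B_lt (List.mem_of_mem_erase hw))]
  congr 1
  ext z
  simp only [Finset.mem_filter, Finset.mem_image, List.mem_toFinset]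
  constructor
  · rintro ⟨⟨w, hw, rfl⟩, hz⟩
    have := mem_B.1 (List.mem_of_mem_erase hw)
    exact ⟨hlay.memB w (by omega) (by omega), hz⟩
  · rintro ⟨hz, hrz⟩
    obtain ⟨i, h1, h2, rfl⟩ := hlay.surB z hz
    refine ⟨⟨i, ?_, rfl⟩, hrz⟩
    have hne : i ≠ b := by
      rintro rfl
      exact irr hr _ hrz
    rw [List.mem_erase_of_ne hne]
    exact mem_B.2 ⟨h1, h2⟩

/-- Out-neighbours of a vertex of `A` are known, with index in `A ∪ B`. -/
theorem out_A_index (hr : ∀ u w, r u w → ¬ r w u) (hlay : Lay r v e S.k S.m S.c S.lvl3) {a : ℕ}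
    (ha1 : 1 ≤ a) (ha2 : a < S.k + 1) {z : V} (h : r (e a) z) : ∃ j, j ∈ S.A ++ S.B ∧ e j = z := by
  rcases out_of_A hr (hlay.memA a ha1 ha2) h with hz | hz
  · obtain ⟨i, h1, h2, rfl⟩ := hlay.surA z hz
    refine ⟨i, ?_, rfl⟩
    rw [List.mem_append]
    left
    exact mem_AA.2 (by omega)
  · obtain ⟨i, h1, h2, rfl⟩ := hlay.surB z hz
    refine ⟨i, ?_, rfl⟩
    rw [List.mem_append]
    right
    exact mem_B.2 ⟨h1, h2⟩

theorem mem_kn {n : ℕ} {z : V} [DecidableEq V] : z ∈ (Finset.range n).image e ↔ ∃ j, j < n ∧ e j = z := by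
  simp

theorem inA_bounds {a : ℕ} (h : S.inA a = true) : 1 ≤ a ∧ a < S.k + 1 := by
  have := mem_listA (inA_iff.1 h)
  omega

theorem mem_AB_lt {w : ℕ} (h : w ∈ S.A ++ S.B) : w < S.n := by
  rw [List.mem_append] at h
  rcases h with h | h
  · exact A_lt h
  · exact B_lt h

theorem dom_nodup (x : ℕ) : (S.dom x).Nodup := by
  unfold Shape.dom
  split
  · exact (nodup_AB S).erase x
  · exact List.nodup_range.erase x

theorem dom_lt {x w : ℕ} (h : w ∈ S.dom x) : w < S.n := by
  unfold Shape.dom at h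
  split at h
  · exact mem_AB_lt (List.mem_of_mem_erase h)
  · exact List.mem_range.1 (List.mem_of_mem_erase h)

theorem sum_dom (hr : ∀ u w, r u w → ¬ r w u) (hlay : Lay r v e S.k S.m S.c S.lvl3) {x : ℕ} (hx : x < S.n)
    [DecidableEq V] [DecidablePred (r (e x))] :
    sumL (arcN (mkConf r e S.n) x) (S.dom x) = (((Finset.range S.n).image e).filter (r (e x))).card := by
  rw [sum_arc hlay hx _ (dom_nodup x) (fun w hw => dom_lt hw)]
  congr 1
  ext z
  simp only [Finset.mem_filter, Finset.mem_image, List.mem_toFinset, Finset.mem_range]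
  constructor
  · rintro ⟨⟨w, hw, rfl⟩, hz⟩
    exact ⟨⟨w, dom_lt hw, rfl⟩, hz⟩
  · rintro ⟨⟨w, hw, rfl⟩, hz⟩
    refine ⟨⟨w, ?_, rfl⟩, hz⟩
    have hne : w ≠ x := by
      rintro rfl
      exact irr hr _ hz
    unfold Shape.dom
    split
    · rename_i hA
      obtain ⟨h1, h2⟩ := inA_bounds hA
      obtain ⟨j, hj, hje⟩ := out_A_index hr hlay h1 h2 hz
      have := lay_inj hlay j w (mem_AB_lt hj) hw hje
      rw [List.mem_erase_of_ne hne, ← this]
      exact hj
    · rw [List.mem_erase_of_ne hne]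
      exact List.mem_range.2 hw

theorem tgt_nodup (x : ℕ) : (S.tgt x).Nodup := List.nodup_range.erase x

theorem tgt_lt {x w : ℕ} (h : w ∈ S.tgt x) : w < S.n := List.mem_range.1 (List.mem_of_mem_erase h)

theorem sum_tgt (hlay : Lay r v e S.k S.m S.c S.lvl3) {x : ℕ} (hx : x < S.n) [DecidableEq V] :
    sumL (yN (mkConf r e S.n) x) (S.tgt x) ≤ (((Finset.range S.n).image e).filter (· ∈ second r (e x))).card := by
  rw [sum_y hlay hx _ (tgt_nodup x) (fun w hw => tgt_lt hw)]
  apply Finset.card_le_card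
  intro z
  simp only [Finset.mem_filter, Finset.mem_image, List.mem_toFinset, Finset.mem_range]
  rintro ⟨⟨w, hw, rfl⟩, hz⟩
  exact ⟨⟨w, tgt_lt hw, rfl⟩, hz⟩

/-- The out-neighbours of a closed index are known. -/
theorem closed_known (hr : ∀ u w, r u w → ¬ r w u) (hlay : Lay r v e S.k S.m S.c S.lvl3) {u : ℕ}
    (hu : S.closed u = true) {z : V} (h : r (e u) z) : ∃ j, j < S.n ∧ e j = z := by
  unfold Shape.closed at hu
  rw [Bool.or_eq_true, Bool.and_eq_true] at hu
  rcases hu with hu | ⟨h3, hu⟩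
  · obtain ⟨h1, h2⟩ := inA_bounds hu
    obtain ⟨j, hj, hje⟩ := out_A_index hr hlay h1 h2 h
    exact ⟨j, mem_AB_lt hj, hje⟩
  · have hb := mem_B.1 (inB_iff.1 hu)
    exact hlay.clos h3 u hb.1 hb.2 z h

theorem card_split [DecidableEq V] (U : Finset V) (n : ℕ) (f : ℕ → V) (hf : ∀ w, w < n → f w ∈ Finset.univ) :
    U.card = (((Finset.range n).image f).filter (· ∈ U)).card + (U \ (Finset.range n).image f).card := by
  have h : ((Finset.range n).image f).filter (· ∈ U) = U ∩ (Finset.range n).image f := by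
    ext z
    simp only [Finset.mem_filter, Finset.mem_inter]
    tauto
  rw [h]
  exact (Finset.card_inter_add_card_sdiff U _).symm

theorem card_out_split [DecidableEq V] [DecidablePred (r (e 0))] {y : V} [DecidablePred (r y)] (n : ℕ) :
    (out r y).card = (((Finset.range n).image e).filter (r y)).card + ((out r y) \ (Finset.range n).image e).card := by
  have h : ((Finset.range n).image e).filter (r y) = out r y ∩ (Finset.range n).image e := by
    ext z
    simp only [Finset.mem_filter, Finset.mem_inter, mem_out']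
    tauto
  rw [h]
  exact (Finset.card_inter_add_card_sdiff _ _).symm

theorem hasE_false_closed {x : ℕ} (h1 : S.present x = true) (h2 : S.hasE x = false) : S.closed x = true := by
  unfold Shape.hasE at h2
  unfold Shape.present at h1
  unfold Shape.closed
  rw [Bool.or_eq_true, Bool.or_eq_true] at h1
  rw [Bool.or_eq_false_iff] at h2
  rw [Bool.or_eq_true, Bool.and_eq_true]
  rcases h1 with (h | h) | h
  · exact Or.inl h
  · refine Or.inr ⟨?_, h⟩
    cases h3 : S.lvl3 with
    | true => rfl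
    | false =>
      rw [h3, h] at h2
      simp at h2
  · rw [h] at h2
    simp at h2

theorem good_of_lay (hk7 : S.k ≤ 7) (hr : ∀ u w, r u w → ¬ r w u) (hlay : Lay r v e S.k S.m S.c S.lvl3)
    (hns : ∀ u, (second r u).card < (out r u).card) (hdeg : ∀ u, S.k ≤ (out r u).card) {F : Flags}
    (hroot : F.hasRoot = true → ∀ w, 2 ≤ w → w < S.k + 1 + S.m → (r (e 1) (e w) ↔ F.rootPos S.k w = true))
    (hminx : ∀ z, z ∈ out r v → F.minx ≤ xr r v z)
    (hforb : ∀ z, z ∈ out r v → ∀ x, x ∈ F.forb → ¬ (xr r v z = x ∧ yr r v z = S.k - x))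
    (hsx : ∀ i, i ∈ F.sx → i ∈ S.A ∧ i + 1 ∈ S.A ∧ xr r v (e i) ≤ xr r v (e (i + 1)))
    (hsz : ∀ i, i ∈ F.sz → i ∈ S.B ∧ i + 1 ∈ S.B ∧ yr r v (e i) ≤ yr r v (e (i + 1)))
    (hreg : F.reg = true → ∀ z, z ∈ out r v → xr r v z = 3 ∧ yr r v z = 5) :
    Good S F (mkConf r e S.n) := by
  classical
  have aA : ∀ {a}, a ∈ S.A → e a ∈ out r v := by
    intro a ha
    have := mem_listA ha
    exact hlay.memA a this.1 (by omega)
  have arc_lt : ∀ {x w}, (mkConf r e S.n).arc x w = true → x < S.n ∧ w < S.n ∧ r (e x) (e w) := by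
    intro x w h
    simpa [mkConf] using h
  refine
    { excl := ?_, path := ?_, noarc := ?_, pdef := ?_, exle := ?_, plle := ?_, deg := ?_, ns := ?_,
      coverB := ?_, coverC := ?_, root := ?_, minx := ?_, forb := ?_, sx := ?_, sz := ?_, reg := ?_ }
  · intro u w h
    obtain ⟨h1, h2, h3⟩ := arc_lt h
    cases h4 : (mkConf r e S.n).arc w u with
    | false => rfl
    | true => exact absurd (arc_lt h4).2.2 (hr _ _ h3)
  · intro u t w hne h1 h2 h3
    obtain ⟨a1, a2, a3⟩ := arc_lt h1
    obtain ⟨b1, b2, b3⟩ := arc_lt h2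
    rw [y_iff a1 b2, mem_second']
    refine ⟨fun he => hne (lay_inj hlay u w a1 b2 he.symm), ?_, _, a3, b3⟩
    intro hc
    have := (arc_iff (r := r) (e := e) a1 b2).2 hc
    rw [h3] at this
    cases this
  · intro u w hA hb
    cases h4 : (mkConf r e S.n).arc u w with
    | false => rfl
    | true =>
      exfalso
      obtain ⟨a1, a2, a3⟩ := arc_lt h4
      obtain ⟨h1, h2⟩ := inA_bounds hA
      obtain ⟨j, hj, hje⟩ := out_A_index hr hlay h1 h2 a3
      have hjw := lay_inj hlay j w (mem_AB_lt hj) a2 hje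
      subst hjw
      have hne : j ≠ u := by
        rintro rfl
        exact irr hr _ a3
      unfold Shape.hasArc at hb
      rw [if_pos hA] at hb
      have hAB : (S.inA j || S.inB j) = true := by
        rw [Bool.or_eq_true, inA_iff, inB_iff]
        exact List.mem_append.1 hj
      rw [hAB] at hb
      have : Nat.beq j u = false := by
        cases h5 : Nat.beq j u with
        | false => rfl
        | true => exact absurd (Nat.eq_of_beq_eq_true h5) hne
      rw [this] at hb
      simp at hb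
  · intro u w hc h
    obtain ⟨a1, a2, a3⟩ := arc_lt h
    show min 7 ((out r (e w)) \ kn e S.n).card ≤ min 7 ((second r (e u)) \ kn e S.n).card
    apply min_le_min_left
    apply Finset.card_le_card
    intro z hz
    rw [Finset.mem_sdiff] at hz ⊢
    obtain ⟨hz1, hz2⟩ := hz
    refine ⟨?_, hz2⟩
    rw [mem_second']
    refine ⟨?_, ?_, _, a3, mem_out'.1 hz1⟩
    · rintro rfl
      exact hz2 (by unfold kn; exact Finset.mem_image_of_mem _ (Finset.mem_range.2 a1))
    · intro hrz
      obtain ⟨j, hj, hje⟩ := closed_known hr hlay hc hrz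
      exact hz2 (by unfold kn; exact Finset.mem_image.2 ⟨j, Finset.mem_range.2 hj, hje⟩)
  · intro x; exact min_le_left _ _
  · intro x; exact min_le_left _ _
  · intro x hx
    obtain ⟨h1, h2⟩ := present_iff.1 hx
    rw [sum_dom hr hlay h2]
    have hc := card_out_split (r := r) (e := e) (y := e x) S.n
    have hd := hdeg (e x)
    have hkn : kn e S.n = (Finset.range S.n).image e := rfl
    cases hE : S.hasE x with
    | true =>
      show S.k ≤ _ + (if true = true then min 7 ((out r (e x)) \ kn e S.n).card else 0)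
      rw [if_pos rfl, hkn]
      omega
    | false =>
      have hcl := hasE_false_closed hx hE
      have h0 : ((out r (e x)) \ (Finset.range S.n).image e) = ∅ := by
        rw [Finset.sdiff_eq_empty_iff_subset]
        intro z hz
        obtain ⟨j, hj, hje⟩ := closed_known hr hlay hcl (mem_out'.1 hz)
        exact Finset.mem_image.2 ⟨j, Finset.mem_range.2 hj, hje⟩
      rw [h0, Finset.card_empty] at hc
      simp only [Bool.false_eq_true, if_false, Nat.add_zero]
      omega
  · intro u hu
    have hpr := closed_present hu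
    obtain ⟨h1, h2⟩ := present_iff.1 hpr
    rw [sum_dom hr hlay h2]
    have ht := sum_tgt hlay (x := u) h2
    have hc := card_out_split (r := r) (e := e) (y := e u) S.n
    have h0 : ((out r (e u)) \ (Finset.range S.n).image e) = ∅ := by
      rw [Finset.sdiff_eq_empty_iff_subset]
      intro z hz
      obtain ⟨j, hj, hje⟩ := closed_known hr hlay hu (mem_out'.1 hz)
      exact Finset.mem_image.2 ⟨j, Finset.mem_range.2 hj, hje⟩
    rw [h0, Finset.card_empty] at hc
    have hs := card_split (second r (e u)) S.n e (fun _ _ => Finset.mem_univ _)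
    have hn := hns (e u)
    have hp : (mkConf r e S.n).pl u ≤ ((second r (e u)) \ (Finset.range S.n).image e).card := min_le_right _ _
    omega
  · intro x hx
    have hb := mem_B.1 (inB_iff.1 hx)
    have h1 := hlay.memB x hb.1 hb.2
    obtain ⟨_, _, u, hu1, hu2⟩ := mem_second'.1 h1
    obtain ⟨i, i1, i2, rfl⟩ := hlay.surA u (mem_out'.2 hu1)
    have hi : i ∈ S.A := by exact mem_AA.2 (by omega)
    exact ⟨i, hi, (arc_iff (A_lt hi) (B_lt (inB_iff.1 hx))).2 hu2⟩
  · intro x hx
    have hb := inC_iff.1 hx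
    obtain ⟨j, j1, j2, hj⟩ := hlay.covC x hb.1 hb.2
    have hj' : j ∈ S.B := mem_B.2 ⟨j1, j2⟩
    exact ⟨j, hj', (arc_iff (B_lt hj') (by rw [n_eq]; exact hb.2)).2 hj⟩
  · intro h w h1 h2
    have hw : w < S.n := by rw [n_eq]; omega
    have h1n : 1 < S.n := by rw [n_eq]; omega
    rw [Bool.eq_iff_iff, arc_iff h1n hw]
    exact hroot h w h1 h2
  · intro a ha
    have ha' := inA_iff.1 ha
    rw [sX_eq hr hlay ha']
    exact hminx _ (aA ha')
  · intro a ha x hx
    have ha' := inA_iff.1 ha
    rw [sX_eq hr hlay ha', sY_eq hlay ha']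
    exact hforb _ (aA ha') x hx
  · intro i hi
    obtain ⟨h1, h2, h3⟩ := hsx i hi
    rw [sX_eq hr hlay h1, sX_eq hr hlay h2]
    exact h3
  · intro i hi
    obtain ⟨h1, h2, h3⟩ := hsz i hi
    rw [sZ_eq hr hlay h1, sZ_eq hr hlay h2]
    exact h3
  · intro h a ha
    have ha' := inA_iff.1 ha
    rw [sX_eq hr hlay ha', sY_eq hlay ha']
    exact hreg h _ (aA ha')

end WithLay

section Lists

theorem exists_sorted (S : Finset V) (f : V → ℕ) :
    ∃ l : List V, l.Nodup ∧ (∀ z, z ∈ l ↔ z ∈ S) ∧ l.Pairwise (fun a b => f a ≤ f b) ∧ l.length = S.card := by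
  classical
  induction hn : S.card generalizing S with
  | zero =>
    rw [Finset.card_eq_zero] at hn
    subst hn
    exact ⟨[], List.nodup_nil, by simp, List.Pairwise.nil, rfl⟩
  | succ n ih =>
    have hne : S.Nonempty := by
      rw [← Finset.card_pos]; omega
    obtain ⟨a, ha, hmin⟩ := Finset.exists_min_image S f hne
    obtain ⟨l, h1, h2, h3, h4⟩ := ih (S.erase a) (by rw [Finset.card_erase_of_mem ha]; omega)
    refine ⟨a :: l, ?_, ?_, ?_, ?_⟩
    · rw [List.nodup_cons]
      refine ⟨?_, h1⟩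
      intro hal
      exact Finset.notMem_erase a S ((h2 a).1 hal)
    · intro z
      rw [List.mem_cons, h2, Finset.mem_erase]
      constructor
      · rintro (rfl | h)
        · exact ha
        · exact h.2
      · intro hz
        by_cases hza : z = a
        · exact Or.inl hza
        · exact Or.inr ⟨hza, hz⟩
    · rw [List.pairwise_cons]
      refine ⟨?_, h3⟩
      intro b hb
      exact hmin b (Finset.mem_of_mem_erase ((h2 b).1 hb))
    · simp only [List.length_cons]; omega

theorem getD_mem {l : List V} {j : ℕ} (d : V) (hj : j < l.length) : l.getD j d ∈ l := by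
  rw [List.getD_eq_getElem _ _ hj]
  exact List.getElem_mem hj

theorem exists_getD {l : List V} {z : V} (d : V) (hz : z ∈ l) : ∃ j, j < l.length ∧ l.getD j d = z := by
  obtain ⟨i, hi, rfl⟩ := List.getElem_of_mem hz
  exact ⟨i, hi, List.getD_eq_getElem _ _ hi⟩

theorem getD_app_left {a b : List V} {j : ℕ} (d : V) (hj : j < a.length) : (a ++ b).getD j d = a.getD j d :=
  List.getD_append _ _ _ _ hj

theorem getD_app_right {a b : List V} {j : ℕ} (d : V) : (a ++ b).getD (a.length + j) d = b.getD j d := by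
  rw [List.getD_append_right _ _ _ _ (by omega)]
  congr 1
  omega

theorem sorted_getD {f : V → ℕ} {l : List V} (h : l.Pairwise (fun a b => f a ≤ f b)) {j : ℕ} (d : V)
    (hj : j + 1 < l.length) : f (l.getD j d) ≤ f (l.getD (j + 1) d) := by
  rw [List.getD_eq_getElem _ _ (by omega : j < l.length), List.getD_eq_getElem _ _ hj]
  exact List.pairwise_iff_getElem.1 h _ _ _ _ (by omega)

/-- The enumeration given by a list. -/
noncomputable def enumL (v : V) (As Bs Cs : List V) (i : ℕ) : V := (v :: (As ++ (Bs ++ Cs))).getD i v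

theorem enum_A {v : V} {As Bs Cs : List V} {j : ℕ} (hj : j < As.length) :
    enumL v As Bs Cs (1 + j) = As.getD j v := by
  unfold enumL
  rw [Nat.add_comm, List.getD_cons_succ]
  exact getD_app_left v hj

theorem enum_B {v : V} {As Bs Cs : List V} {j : ℕ} (hj : j < Bs.length) :
    enumL v As Bs Cs (1 + As.length + j) = Bs.getD j v := by
  unfold enumL
  have e : 1 + As.length + j = (As.length + j) + 1 := by omega
  rw [e, List.getD_cons_succ, getD_app_right]
  exact getD_app_left v hj

theorem enum_C {v : V} {As Bs Cs : List V} {j : ℕ} :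
    enumL v As Bs Cs (1 + As.length + Bs.length + j) = Cs.getD j v := by
  unfold enumL
  have e : 1 + As.length + Bs.length + j = (As.length + (Bs.length + j)) + 1 := by omega
  rw [e, List.getD_cons_succ, getD_app_right, getD_app_right]

theorem lay_of_lists {v : V} {As Bs Cs : List V} {k m c : ℕ} {l3 : Bool}
    (hA : As.length = k) (hB : Bs.length = m) (hC : Cs.length = c)
    (hnd : (v :: (As ++ (Bs ++ Cs))).Nodup)
    (memA : ∀ z, z ∈ As ↔ z ∈ out r v) (memB : ∀ z, z ∈ Bs ↔ z ∈ second r v)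
    (cov : ∀ z, z ∈ Cs → ∃ b, b ∈ Bs ∧ r b z)
    (clos : l3 = true → ∀ b, b ∈ Bs → ∀ z, r b z → z = v ∨ z ∈ As ∨ z ∈ Bs ∨ z ∈ Cs)
    (nol3 : l3 = false → c = 0) :
    Lay r v (enumL v As Bs Cs) k m c l3 := by
  have eA : ∀ i, 1 ≤ i → i < k + 1 → enumL v As Bs Cs i ∈ As := by
    intro i h1 h2
    have e := enum_A (v := v) (As := As) (Bs := Bs) (Cs := Cs) (j := i - 1) (by omega)
    rw [show 1 + (i - 1) = i by omega] at e
    rw [e]
    exact getD_mem v (by omega)
  have eB : ∀ i, k + 1 ≤ i → i < k + 1 + m → enumL v As Bs Cs i ∈ Bs := by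
    intro i h1 h2
    have e := enum_B (v := v) (As := As) (Bs := Bs) (Cs := Cs) (j := i - (k + 1)) (by omega)
    rw [show 1 + As.length + (i - (k + 1)) = i by omega] at e
    rw [e]
    exact getD_mem v (by omega)
  have eC : ∀ i, k + 1 + m ≤ i → i < k + 1 + m + c → enumL v As Bs Cs i ∈ Cs := by
    intro i h1 h2
    have e := enum_C (v := v) (As := As) (Bs := Bs) (Cs := Cs) (j := i - (k + 1 + m))
    rw [show 1 + As.length + Bs.length + (i - (k + 1 + m)) = i by omega] at e
    rw [e]
    exact getD_mem v (by omega)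
  have sA : ∀ z, z ∈ As → ∃ i, 1 ≤ i ∧ i < k + 1 ∧ enumL v As Bs Cs i = z := by
    intro z hz
    obtain ⟨j, hj, rfl⟩ := exists_getD v hz
    exact ⟨1 + j, by omega, by omega, enum_A hj⟩
  have sB : ∀ z, z ∈ Bs → ∃ i, k + 1 ≤ i ∧ i < k + 1 + m ∧ enumL v As Bs Cs i = z := by
    intro z hz
    obtain ⟨j, hj, rfl⟩ := exists_getD v hz
    refine ⟨1 + As.length + j, by omega, by omega, enum_B hj⟩
  have sC : ∀ z, z ∈ Cs → ∃ i, k + 1 + m ≤ i ∧ i < k + 1 + m + c ∧ enumL v As Bs Cs i = z := by
    intro z hz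
    obtain ⟨j, hj, rfl⟩ := exists_getD v hz
    refine ⟨1 + As.length + Bs.length + j, by omega, by omega, enum_C⟩
  refine ⟨rfl, ?_, fun i h1 h2 => (memA _).1 (eA i h1 h2), fun z hz => sA z ((memA z).2 hz),
    fun i h1 h2 => (memB _).1 (eB i h1 h2), fun z hz => sB z ((memB z).2 hz), ?_, ?_, nol3⟩
  · intro i j hi hj he
    have hlen : (v :: (As ++ (Bs ++ Cs))).length = k + 1 + m + c := by
      simp only [List.length_cons, List.length_append, hA, hB, hC]; omega
    unfold enumL at he
    rw [List.getD_eq_getElem _ _ (by omega), List.getD_eq_getElem _ _ (by omega)] at he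
    exact (List.Nodup.getElem_inj_iff hnd).1 he
  · intro i h1 h2
    obtain ⟨b, hb, hbz⟩ := cov _ (eC i h1 h2)
    obtain ⟨j, j1, j2, rfl⟩ := sB b hb
    exact ⟨j, j1, j2, hbz⟩
  · intro hl i h1 h2 z hz
    rcases clos hl _ (eB i h1 h2) z hz with h | h | h | h
    · exact ⟨0, by omega, h.symm⟩
    · obtain ⟨j, j1, j2, hj⟩ := sA z h
      exact ⟨j, by omega, hj⟩
    · obtain ⟨j, j1, j2, hj⟩ := sB z h
      exact ⟨j, by omega, hj⟩
    · obtain ⟨j, j1, j2, hj⟩ := sC z h
      exact ⟨j, j2, hj⟩

theorem disj_out_second {v z : V} (h1 : z ∈ out r v) (h2 : z ∈ second r v) : False :=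
  (mem_second'.1 h2).2.1 (mem_out'.1 h1)

theorem nodup_L {v : V} {As Bs Cs : List V} (hr : ∀ u w, r u w → ¬ r w u)
    (memA : ∀ z, z ∈ As ↔ z ∈ out r v) (memB : ∀ z, z ∈ Bs ↔ z ∈ second r v)
    (h1 : As.Nodup) (h2 : Bs.Nodup) (h3 : Cs.Nodup)
    (hC : ∀ z, z ∈ Cs → z ≠ v ∧ z ∉ out r v ∧ z ∉ second r v) :
    (v :: (As ++ (Bs ++ Cs))).Nodup := by
  rw [List.nodup_cons, List.mem_append, List.mem_append]
  refine ⟨?_, ?_⟩
  · rintro (h | h | h)
    · exact irr hr v (mem_out'.1 ((memA v).1 h))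
    · exact (mem_second'.1 ((memB v).1 h)).1 rfl
    · exact (hC v h).1 rfl
  · rw [List.nodup_append]
    refine ⟨h1, ?_, ?_⟩
    · rw [List.nodup_append]
      refine ⟨h2, h3, ?_⟩
      intro a ha b hb hab
      subst hab
      exact (hC a hb).2.2 ((memB a).1 ha)
    · intro a ha b hb hab
      subst hab
      rcases List.mem_append.1 hb with hb | hb
      · exact disj_out_second ((memA a).1 ha) ((memB a).1 hb)
      · exact (hC a hb).2.1 ((memA a).1 ha)

end Lists

section Cases

variable {v : V} {S : Shape} {F : Flags}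

theorem length_of_mem {l : List V} {U : Finset V} (h1 : l.Nodup) (h2 : ∀ z, z ∈ l ↔ z ∈ U) : l.length = U.card := by
  classical
  rw [← List.toFinset_card_of_nodup h1]
  congr 1
  ext z
  rw [List.mem_toFinset, h2]

theorem plain_good (hk7 : S.k ≤ 7) (hr : ∀ u w, r u w → ¬ r w u)
    (hns : ∀ u, (second r u).card < (out r u).card) (hdeg : ∀ u, S.k ≤ (out r u).card)
    (hv : (out r v).card = S.k) (hm : S.m = (second r v).card) (hc : S.c = 0) (hl : S.lvl3 = false)
    (hroot : F.hasRoot = false)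
    (hminx : ∀ z, z ∈ out r v → F.minx ≤ xr r v z)
    (hforb : ∀ z, z ∈ out r v → ∀ x, x ∈ F.forb → ¬ (xr r v z = x ∧ yr r v z = S.k - x))
    (hsx : ∀ i, i ∈ F.sx → 1 ≤ i ∧ i + 1 < S.k + 1)
    (hsz : ∀ i, i ∈ F.sz → S.k + 1 ≤ i ∧ i + 1 < S.k + 1 + S.m)
    (hreg : F.reg = true → ∀ z, z ∈ out r v → xr r v z = 3 ∧ yr r v z = 5) :
    ∃ K, Good S F K := by
  obtain ⟨As, a1, a2, a3, a4⟩ := exists_sorted (out r v) (xr r v)
  obtain ⟨Bs, b1, b2, b3, b4⟩ := exists_sorted (second r v) (yr r v)
  have hA : As.length = S.k := by rw [a4, hv]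
  have hB : Bs.length = S.m := by rw [b4, hm]
  have hlay : Lay r v (enumL v As Bs []) S.k S.m S.c S.lvl3 :=
    lay_of_lists hA hB (by simp [hc]) (nodup_L hr a2 b2 a1 b1 List.nodup_nil (by simp)) a2 b2 (by simp)
      (by rw [hl]; simp) (fun _ => hc)
  refine ⟨_, good_of_lay hk7 hr hlay hns hdeg ?_ hminx hforb ?_ ?_ hreg⟩
  · intro h; rw [hroot] at h; cases h
  · intro i hi
    obtain ⟨h1, h2⟩ := hsx i hi
    refine ⟨by exact mem_AA.2 (by omega), by exact mem_AA.2 (by omega), ?_⟩
    have e1 := enum_A (v := v) (As := As) (Bs := Bs) (Cs := []) (j := i - 1) (by omega)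
    have e2 := enum_A (v := v) (As := As) (Bs := Bs) (Cs := []) (j := i) (by omega)
    rw [show 1 + (i - 1) = i by omega] at e1
    rw [show 1 + i = i + 1 by omega] at e2
    rw [e1, e2]
    have := sorted_getD a3 (j := i - 1) v (by omega)
    rwa [show i - 1 + 1 = i by omega] at this
  · intro i hi
    obtain ⟨h1, h2⟩ := hsz i hi
    refine ⟨mem_B.2 ⟨h1, by omega⟩, mem_B.2 ⟨by omega, h2⟩, ?_⟩
    have e1 := enum_B (v := v) (As := As) (Bs := Bs) (Cs := []) (j := i - (S.k + 1)) (by omega)
    have e2 := enum_B (v := v) (As := As) (Bs := Bs) (Cs := []) (j := i - (S.k + 1) + 1) (by omega)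
    rw [hA, show 1 + S.k + (i - (S.k + 1)) = i by omega] at e1
    rw [hA, show 1 + S.k + (i - (S.k + 1) + 1) = i + 1 by omega] at e2
    rw [e1, e2]
    exact sorted_getD b3 v (by omega)

open Classical in
theorem root_good (hk7 : S.k ≤ 7) (hr : ∀ u w, r u w → ¬ r w u)
    (hns : ∀ u, (second r u).card < (out r u).card) (hdeg : ∀ u, S.k ≤ (out r u).card)
    (hv : (out r v).card = S.k) {a0 : V} (ha0 : a0 ∈ out r v) (hm : S.m = (second r v).card)
    (hroot : F.hasRoot = true) (hx0 : F.x0 = xr r v a0) (hy0 : F.y0 = yr r v a0)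
    (hminx : ∀ z, z ∈ out r v → F.minx ≤ xr r v z)
    (hforb : ∀ z, z ∈ out r v → ∀ x, x ∈ F.forb → ¬ (xr r v z = x ∧ yr r v z = S.k - x))
    (hsx : ∀ i, i ∈ F.sx → 2 ≤ i ∧ i + 1 < S.k + 1 ∧ i ≠ 1 + F.x0)
    (hsz : ∀ i, i ∈ F.sz → S.k + 1 ≤ i ∧ i + 1 < S.k + 1 + S.m ∧ i ≠ S.k + F.y0)
    (hreg : F.reg = false) {Cs : List V} (hCn : Cs.Nodup) (hCl : Cs.length = S.c)
    (hC : ∀ z, z ∈ Cs → z ≠ v ∧ z ∉ out r v ∧ z ∉ second r v)
    (hcov : ∀ z, z ∈ Cs → ∃ b, b ∈ second r v ∧ r b z)
    (hclos : S.lvl3 = true → ∀ b, b ∈ second r v → ∀ z, r b z → z = v ∨ z ∈ out r v ∨ z ∈ second r v ∨ z ∈ Cs)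
    (hnol3 : S.lvl3 = false → S.c = 0) :
    ∃ K, Good S F K := by
  obtain ⟨X, x1, x2, x3, x4⟩ := exists_sorted ((out r v).filter (r a0)) (xr r v)
  obtain ⟨R, r1, r2, r3, _⟩ := exists_sorted (((out r v).erase a0).filter (fun z => ¬ r a0 z)) (xr r v)
  obtain ⟨W, w1, w2, w3, w4⟩ := exists_sorted ((second r v).filter (r a0)) (yr r v)
  obtain ⟨M, m1, m2, m3, _⟩ := exists_sorted ((second r v).filter (fun z => ¬ r a0 z)) (yr r v)
  have hXl : X.length = F.x0 := by rw [x4, hx0]; rfl
  have hWl : W.length = F.y0 := by rw [w4, hy0]; rfl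
  simp only [Finset.mem_filter, Finset.mem_erase] at x2 r2 w2 m2
  have hx_r : ∀ z, z ∈ X → r a0 z := fun z hz => ((x2 z).1 hz).2
  have hr_r : ∀ z, z ∈ R → ¬ r a0 z := fun z hz => ((r2 z).1 hz).2
  have hw_r : ∀ z, z ∈ W → r a0 z := fun z hz => ((w2 z).1 hz).2
  have hm_r : ∀ z, z ∈ M → ¬ r a0 z := fun z hz => ((m2 z).1 hz).2
  have memA : ∀ z, z ∈ a0 :: (X ++ R) ↔ z ∈ out r v := by
    intro z
    rw [List.mem_cons, List.mem_append, x2, r2]
    constructor
    · rintro (rfl | h | h)
      · exact ha0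
      · exact h.1
      · exact h.1.2
    · intro hz
      by_cases h1 : z = a0
      · exact Or.inl h1
      · by_cases h2 : r a0 z
        · exact Or.inr (Or.inl ⟨hz, h2⟩)
        · exact Or.inr (Or.inr ⟨⟨h1, hz⟩, h2⟩)
  have memB : ∀ z, z ∈ W ++ M ↔ z ∈ second r v := by
    intro z
    rw [List.mem_append, w2, m2]
    constructor
    · rintro (h | h) <;> exact h.1
    · intro hz
      by_cases h2 : r a0 z
      · exact Or.inl ⟨hz, h2⟩
      · exact Or.inr ⟨hz, h2⟩
  have ndA : (a0 :: (X ++ R)).Nodup := by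
    rw [List.nodup_cons, List.mem_append, List.nodup_append]
    refine ⟨?_, x1, r1, ?_⟩
    · rintro (h | h)
      · exact irr hr _ (hx_r _ h)
      · exact ((r2 _).1 h).1.1 rfl
    · intro a ha b hb hab
      subst hab
      exact hr_r _ hb (hx_r _ ha)
  have ndB : (W ++ M).Nodup := by
    rw [List.nodup_append]
    refine ⟨w1, m1, ?_⟩
    intro a ha b hb hab
    subst hab
    exact hm_r _ hb (hw_r _ ha)
  have hAl : (a0 :: (X ++ R)).length = S.k := by rw [length_of_mem ndA memA, hv]
  have hBl : (W ++ M).length = S.m := by rw [length_of_mem ndB memB, hm]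
  have hAl' : X.length + R.length + 1 = S.k := by
    simp only [List.length_cons, List.length_append] at hAl; omega
  have hBl' : W.length + M.length = S.m := by
    simp only [List.length_append] at hBl; omega
  have hlay : Lay r v (enumL v (a0 :: (X ++ R)) (W ++ M) Cs) S.k S.m S.c S.lvl3 := by
    refine lay_of_lists hAl hBl hCl (nodup_L hr memA memB ndA ndB hCn hC) memA memB ?_ ?_ hnol3
    · intro z hz
      obtain ⟨b, hb, hbz⟩ := hcov z hz
      exact ⟨b, (memB b).2 hb, hbz⟩
    · intro hl b hb z hz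
      rcases hclos hl b ((memB b).1 hb) z hz with h | h | h | h
      · exact Or.inl h
      · exact Or.inr (Or.inl ((memA z).2 h))
      · exact Or.inr (Or.inr (Or.inl ((memB z).2 h)))
      · exact Or.inr (Or.inr (Or.inr h))
  set e := enumL v (a0 :: (X ++ R)) (W ++ M) Cs with he
  have e1 : e 1 = a0 := by
    have := enum_A (v := v) (As := a0 :: (X ++ R)) (Bs := W ++ M) (Cs := Cs) (j := 0) (by simp)
    simpa using this
  have eX : ∀ j, j < X.length → e (2 + j) = X.getD j v := by
    intro j hj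
    have := enum_A (v := v) (As := a0 :: (X ++ R)) (Bs := W ++ M) (Cs := Cs) (j := 1 + j)
      (by simp only [List.length_cons, List.length_append]; omega)
    rw [show 1 + (1 + j) = 2 + j by omega, show 1 + j = j + 1 by omega, List.getD_cons_succ,
      getD_app_left v hj] at this
    exact this
  have eR : ∀ j, j < R.length → e (2 + X.length + j) = R.getD j v := by
    intro j hj
    have := enum_A (v := v) (As := a0 :: (X ++ R)) (Bs := W ++ M) (Cs := Cs) (j := 1 + (X.length + j))
      (by simp only [List.length_cons, List.length_append]; omega)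
    rw [show 1 + (1 + (X.length + j)) = 2 + X.length + j by omega, show 1 + (X.length + j) = (X.length + j) + 1 by omega,
      List.getD_cons_succ, getD_app_right] at this
    exact this
  have eW : ∀ j, j < W.length → e (S.k + 1 + j) = W.getD j v := by
    intro j hj
    have := enum_B (v := v) (As := a0 :: (X ++ R)) (Bs := W ++ M) (Cs := Cs) (j := j)
      (by simp only [List.length_append]; omega)
    rw [hAl, show 1 + S.k + j = S.k + 1 + j by omega, getD_app_left v hj] at this
    exact this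
  have eM : ∀ j, j < M.length → e (S.k + 1 + W.length + j) = M.getD j v := by
    intro j hj
    have := enum_B (v := v) (As := a0 :: (X ++ R)) (Bs := W ++ M) (Cs := Cs) (j := W.length + j)
      (by simp only [List.length_append]; omega)
    rw [hAl, show 1 + S.k + (W.length + j) = S.k + 1 + W.length + j by omega, getD_app_right] at this
    exact this
  refine ⟨_, good_of_lay hk7 hr hlay hns hdeg ?_ hminx hforb ?_ ?_ ?_⟩
  · intro _ w h1 h2
    rw [e1]
    have hpos : F.rootPos S.k w = true ↔ (w < 2 + F.x0 ∨ (S.k + 1 ≤ w ∧ w < S.k + 1 + F.y0)) := by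
      unfold Flags.rootPos
      rw [Bool.or_eq_true, Bool.and_eq_true]
      constructor
      · rintro (h | ⟨h, h'⟩)
        · exact Or.inl (Nat.le_of_ble_eq_true h)
        · exact Or.inr ⟨Nat.le_of_ble_eq_true h, Nat.le_of_ble_eq_true h'⟩
      · rintro (h | ⟨h, h'⟩)
        · exact Or.inl (Nat.ble_eq_true_of_le h)
        · exact Or.inr ⟨Nat.ble_eq_true_of_le h, Nat.ble_eq_true_of_le h'⟩
    rw [hpos]
    by_cases c1 : w < 2 + F.x0
    · have := eX (w - 2) (by omega)
      rw [show 2 + (w - 2) = w by omega] at this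
      rw [this]
      exact ⟨fun _ => Or.inl c1, fun _ => hx_r _ (getD_mem v (by omega))⟩
    by_cases c2 : w < S.k + 1
    · have := eR (w - 2 - X.length) (by omega)
      rw [show 2 + X.length + (w - 2 - X.length) = w by omega] at this
      rw [this]
      have h5 := hr_r _ (getD_mem (l := R) (j := w - 2 - X.length) v (by omega))
      constructor
      · intro h6; exact absurd h6 h5
      · rintro (h6 | h6)
        · exact absurd h6 c1
        · omega
    by_cases c3 : w < S.k + 1 + F.y0
    · have := eW (w - (S.k + 1)) (by omega)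
      rw [show S.k + 1 + (w - (S.k + 1)) = w by omega] at this
      rw [this]
      exact ⟨fun _ => Or.inr ⟨by omega, c3⟩, fun _ => hw_r _ (getD_mem v (by omega))⟩
    · have := eM (w - (S.k + 1) - W.length) (by omega)
      rw [show S.k + 1 + W.length + (w - (S.k + 1) - W.length) = w by omega] at this
      rw [this]
      have h5 := hm_r _ (getD_mem (l := M) (j := w - (S.k + 1) - W.length) v (by omega))
      constructor
      · intro h6; exact absurd h6 h5
      · rintro (h6 | h6)
        · exact absurd h6 c1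
        · exact absurd h6.2 c3
  · intro i hi
    obtain ⟨h1, h2, h3⟩ := hsx i hi
    refine ⟨by exact mem_AA.2 (by omega), by exact mem_AA.2 (by omega), ?_⟩
    by_cases c1 : i + 1 < 2 + F.x0
    · have a1 := eX (i - 2) (by omega)
      have a2 := eX (i - 2 + 1) (by omega)
      rw [show 2 + (i - 2) = i by omega] at a1
      rw [show 2 + (i - 2 + 1) = i + 1 by omega] at a2
      rw [a1, a2]
      exact sorted_getD x3 v (by omega)
    · have a1 := eR (i - 2 - X.length) (by omega)
      have a2 := eR (i - 2 - X.length + 1) (by omega)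
      rw [show 2 + X.length + (i - 2 - X.length) = i by omega] at a1
      rw [show 2 + X.length + (i - 2 - X.length + 1) = i + 1 by omega] at a2
      rw [a1, a2]
      exact sorted_getD r3 v (by omega)
  · intro i hi
    obtain ⟨h1, h2, h3⟩ := hsz i hi
    refine ⟨mem_B.2 ⟨h1, by omega⟩, mem_B.2 ⟨by omega, h2⟩, ?_⟩
    by_cases c1 : i + 1 < S.k + 1 + F.y0
    · have a1 := eW (i - (S.k + 1)) (by omega)
      have a2 := eW (i - (S.k + 1) + 1) (by omega)
      rw [show S.k + 1 + (i - (S.k + 1)) = i by omega] at a1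
      rw [show S.k + 1 + (i - (S.k + 1) + 1) = i + 1 by omega] at a2
      rw [a1, a2]
      exact sorted_getD w3 v (by omega)
    · have a1 := eM (i - (S.k + 1) - W.length) (by omega)
      have a2 := eM (i - (S.k + 1) - W.length + 1) (by omega)
      rw [show S.k + 1 + W.length + (i - (S.k + 1) - W.length) = i by omega] at a1
      rw [show S.k + 1 + W.length + (i - (S.k + 1) - W.length + 1) = i + 1 by omega] at a2
      rw [a1, a2]
      exact sorted_getD m3 v (by omega)
  · intro h; rw [hreg] at h; cases h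

end Cases

end Vale.Agent.Lib.P038.SatK
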