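import Vale.Agent.Lib.P038.Sat.Seg
/-!
The clause generator for the local structure around a vertex of out-degree seven, and the proof
that every generated clause holds in every structure satisfying `Good`.

Vertices are indices: `0` is the root, `1..7` its out-neighbours (`A`), `8..7+m` its second
neighbours (`B`), and then `c` further vertices (`C`).  A counter is a node of a table; an atom is a
pair of a node and a threshold `t`, meaning `t ≤ cnt node`.
-/
noncomputable section
namespace Vale.Agent.Lib.P038.SatK
open Vale.Agent.Lib.P038.Sat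

/-- Data of a shape: sizes and the table of counters. -/
structure Shape where
  k : Nat
  m : Nat
  c : Nat
  lvl3 : Bool
  lim : Nat
  kids : Nat
  nds : Nat

/-- Data of a case. -/
structure Flags where
  hasRoot : Bool
  x0 : Nat
  y0 : Nat
  minx : Nat
  forb : List Nat
  sx : List Nat
  sz : List Nat
  reg : Bool

/-- An abstract structure on indices. -/
structure Conf where
  arc : Nat → Nat → Bool
  y : Nat → Nat → Bool
  ex : Nat → Nat
  pl : Nat → Nat

def arcId (u w : Nat) : Nat := 1 + u * 22 + w
def yId (u w : Nat) : Nat := 485 + u * 22 + w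
def exId (x : Nat) : Nat := 969 + x
def plId (u : Nat) : Nat := 991 + u
def vr (i t : Nat) : Nat := i * 256 + t
def lp (i t : Nat) : Nat := 2 * vr i t
def ln (i t : Nat) : Nat := 2 * vr i t + 1


namespace Shape
variable (S : Shape)

def A : List Nat := (List.range S.k).map (· + 1)
def inA (u : Nat) : Bool := Nat.ble 1 u && Nat.ble u S.k
def B : List Nat := (List.range S.m).map (· + (S.k + 1))
def C : List Nat := (List.range S.c).map (· + (S.k + 1 + S.m))
def n : Nat := S.k + 1 + S.m + S.c
def inB (u : Nat) : Bool := Nat.ble (S.k + 1) u && Nat.blt u (S.k + 1 + S.m)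
def inC (u : Nat) : Bool := Nat.ble (S.k + 1 + S.m) u && Nat.blt u (S.k + 1 + S.m + S.c)
def present (u : Nat) : Bool := S.inA u || S.inB u || S.inC u
def closed (u : Nat) : Bool := S.inA u || (S.lvl3 && S.inB u)
def hasArc (u w : Nat) : Bool :=
  if S.inA u then (S.inA w || S.inB w) && !(Nat.beq w u) else true
def dom (x : Nat) : List Nat :=
  if S.inA x then (S.A ++ S.B).erase x else (List.range S.n).erase x
def tgt (u : Nat) : List Nat := (List.range S.n).erase u
def hasE (x : Nat) : Bool := S.inC x || (!S.lvl3 && S.inB x)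
def hasP (u : Nat) : Bool :=
  (!S.lvl3 && S.inA u && Nat.blt 0 S.m) || (S.lvl3 && S.inB u && Nat.blt 0 S.c)

def kidRaw (p : Nat) : Nat := (S.kids >>> ((p - 1013) * 34)) &&& 17179869183
def inT (p : Nat) : Bool := Nat.ble 1013 p && Nat.blt p S.lim
def kidA (p : Nat) : Nat := if S.inT p then S.kidRaw p &&& 8191 else 0
def kidB (p : Nat) : Nat := if S.inT p then (S.kidRaw p >>> 13) &&& 8191 else 0
def mx (id : Nat) : Nat :=
  if id = 0 then 0 else if id < 969 then 1 else if id < 1013 then 7
  else if S.inT id then S.kidRaw id >>> 26 else 0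

def nd (kind i : Nat) : Nat := (S.nds >>> (13 * (kind * 22 + i))) &&& 8191
def tx (i : Nat) : Nat := S.nd 0 i
def ty (i : Nat) : Nat := S.nd 1 i
def tz (i : Nat) : Nat := S.nd 2 i
def tF (i : Nat) : Nat := S.nd 3 i
def tG (i : Nat) : Nat := S.nd 4 i
def sp (i : Nat) : Nat := S.nd 5 i

def bound (i : Nat) : Nat :=
  if i = 0 then S.k * (S.k - 1) / 2 else if i = 1 then S.m * (S.m - 1) / 2 else if i = 2 then S.k * S.m
  else if i = 3 then S.k * S.k else S.k * S.m

/-- Counters, read off a structure. -/
def cnt (K : Conf) (id : Nat) : Nat :=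
  if id = 0 then 0
  else if id < 485 then (K.arc ((id - 1) / 22) ((id - 1) % 22)).toNat
  else if id < 969 then (K.y ((id - 485) / 22) ((id - 485) % 22)).toNat
  else if id < 991 then K.ex (id - 969)
  else if id < 1013 then K.pl (id - 991)
  else if h : S.kidA id < id ∧ S.kidB id < id then cnt K (S.kidA id) + cnt K (S.kidB id) else 0
termination_by id
decreasing_by
  · exact h.1
  · exact h.2

/-- The leaves below a node. -/
def leavesF : Nat → Nat → List Nat
  | 0, _ => []
  | f + 1, id =>
    if id = 0 then [] else if id < 1013 then [id]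
    else if S.kidA id < id ∧ S.kidB id < id then leavesF f (S.kidA id) ++ leavesF f (S.kidB id) else []

def leaves (id : Nat) : List Nat := S.leavesF (id + 1) id

end Shape

/-- Sum of a function over a list. -/
def sumL (f : Nat → Nat) : List Nat → Nat
  | [] => 0
  | a :: l => f a + sumL f l

theorem sumL_append (f : Nat → Nat) (a b : List Nat) : sumL f (a ++ b) = sumL f a + sumL f b := by
  induction a with
  | nil => simp [sumL]
  | cons x a ih => simp [sumL, ih]; omega

theorem sumL_perm (f : Nat → Nat) {a b : List Nat} (h : a.Perm b) : sumL f a = sumL f b := by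
  induction h with
  | nil => rfl
  | cons x _ ih => simp [sumL, ih]
  | swap x y l => simp [sumL]; omega
  | trans _ _ i1 i2 => exact i1.trans i2

theorem sumL_map (f : Nat → Nat) (g : Nat → Nat) (l : List Nat) : sumL f (l.map g) = sumL (fun x => f (g x)) l := by
  induction l with
  | nil => rfl
  | cons x l ih => simp [sumL, ih]

theorem sumL_congr {f g : Nat → Nat} {l : List Nat} (h : ∀ x, x ∈ l → f x = g x) : sumL f l = sumL g l := by
  induction l with
  | nil => rfl
  | cons x l ih =>
    simp only [sumL]
    rw [h x (by simp), ih (fun y hy => h y (by simp [hy]))]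

/-- The pairs `(i, j)` with `i < j` from a list. -/
def allPairs (l : List Nat) : List (Nat × Nat) :=
  l.flatMap (fun i => (l.filter (fun j => Nat.blt i j)).map (fun j => (i, j)))

/-- All pairs with one entry from each list. -/
def crossPairs (a b : List Nat) : List (Nat × Nat) :=
  a.flatMap (fun i => b.map (fun j => (i, j)))

/-- Both arc nodes of each pair. -/
def pairsFlat (p : List (Nat × Nat)) : List Nat :=
  p.flatMap (fun q => [arcId q.1 q.2, arcId q.2 q.1])

namespace Shape
variable (S : Shape)

/-- The validity check of a shape, evaluated once for each shape. -/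
def chk : Bool :=
  Nat.ble S.k 7 && Nat.ble S.m 6 && Nat.ble S.c 8 &&
  (List.range (S.lim - 1013)).all (fun k =>
    Nat.blt (S.kidA (1013 + k)) (1013 + k) && Nat.blt (S.kidB (1013 + k)) (1013 + k) &&
    Nat.beq (S.mx (1013 + k)) (S.mx (S.kidA (1013 + k)) + S.mx (S.kidB (1013 + k)))) &&
  S.A.all (fun a => (S.leaves (S.tx a)).isPerm ((S.A.erase a).map (arcId a))) &&
  S.A.all (fun a => (S.leaves (S.ty a)).isPerm (S.B.map (arcId a))) &&
  S.B.all (fun b => (S.leaves (S.tz b)).isPerm ((S.B.erase b).map (arcId b))) &&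
  (List.range S.n).all (fun x => !S.present x ||
    (S.leaves (S.tF x)).isPerm ((S.dom x).map (arcId x) ++ if S.hasE x then [exId x] else [])) &&
  (List.range S.n).all (fun u => !S.closed u ||
    (S.leaves (S.tG u)).isPerm ((S.tgt u).map (yId u) ++ if S.hasP u then [plId u] else [])) &&
  (S.leaves (S.sp 0)).isPerm (pairsFlat (allPairs S.A)) &&
  (S.leaves (S.sp 1)).isPerm (pairsFlat (allPairs S.B)) &&
  (S.leaves (S.sp 2)).isPerm (pairsFlat (crossPairs S.A S.B)) &&
  (S.leaves (S.sp 3)).isPerm (S.A.flatMap (fun a => S.leaves (S.tF a))) &&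
  (S.leaves (S.sp 4)).isPerm (S.B.flatMap (fun b => S.leaves (S.tF b))) &&
  Nat.beq (allPairs S.A).length (S.bound 0) &&
  Nat.beq (allPairs S.B).length (S.bound 1) &&
  Nat.beq (crossPairs S.A S.B).length (S.bound 2)

end Shape

def Flags.rootPos (F : Flags) (k w : Nat) : Bool :=
  Nat.blt w (2 + F.x0) || (Nat.ble (k + 1) w && Nat.blt w (k + 1 + F.y0))

/-- The number of arcs from `x` to the members of a list. -/
def arcN (K : Conf) (x w : Nat) : Nat := (K.arc x w).toNat
def yN (K : Conf) (x w : Nat) : Nat := (K.y x w).toNat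
def sX (S : Shape) (K : Conf) (a : Nat) : Nat := sumL (arcN K a) (S.A.erase a)
def sY (S : Shape) (K : Conf) (a : Nat) : Nat := sumL (arcN K a) S.B
def sZ (S : Shape) (K : Conf) (b : Nat) : Nat := sumL (arcN K b) (S.B.erase b)

/-- What the clauses need from a structure. -/
structure Good (S : Shape) (F : Flags) (K : Conf) : Prop where
  excl : ∀ u w, K.arc u w = true → K.arc w u = false
  path : ∀ u t w, u ≠ w → K.arc u t = true → K.arc t w = true → K.arc u w = false → K.y u w = true
  noarc : ∀ u w, S.inA u = true → S.hasArc u w = false → K.arc u w = false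
  pdef : ∀ u w, S.closed u = true → K.arc u w = true → K.ex w ≤ K.pl u
  exle : ∀ x, K.ex x ≤ 7
  plle : ∀ x, K.pl x ≤ 7
  deg : ∀ x, S.present x = true →
    S.k ≤ sumL (arcN K x) (S.dom x) + (if S.hasE x then K.ex x else 0)
  ns : ∀ u, S.closed u = true →
    sumL (yN K u) (S.tgt u) + K.pl u + 1 ≤ sumL (arcN K u) (S.dom u)
  coverB : ∀ x, S.inB x = true → ∃ a, a ∈ S.A ∧ K.arc a x = true
  coverC : ∀ x, S.inC x = true → ∃ b, b ∈ S.B ∧ K.arc b x = true
  root : F.hasRoot = true → ∀ w, 2 ≤ w → w < S.k + 1 + S.m → K.arc 1 w = F.rootPos S.k w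
  minx : ∀ a, S.inA a = true → F.minx ≤ sX S K a
  forb : ∀ a, S.inA a = true → ∀ x, x ∈ F.forb → ¬ (sX S K a = x ∧ sY S K a = S.k - x)
  sx : ∀ i, i ∈ F.sx → sX S K i ≤ sX S K (i + 1)
  sz : ∀ i, i ∈ F.sz → sZ S K i ≤ sZ S K (i + 1)
  reg : F.reg = true → ∀ a, S.inA a = true → sX S K a = 3 ∧ sY S K a = 5

/-! ### The generator -/

namespace Gen
variable (S : Shape) (F : Flags)

def opt (b : Bool) (g : Nat) : List Nat := if b then [g] else []

def g0 (p i j : Nat) : Option (List Nat) :=
  if S.inT p && Nat.blt (i + j) 255 then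
    some ((if 0 < i then [ln (S.kidA p) i] else []) ++ (if 0 < j then [ln (S.kidB p) j] else []) ++ [lp p (i + j)])
  else none

def g1 (p i j : Nat) : Option (List Nat) :=
  if S.inT p && Nat.blt (i + j) 254 then
    some ([ln p (i + j + 1)] ++ (if i + 1 ≤ S.mx (S.kidA p) then [lp (S.kidA p) (i + 1)] else []) ++
      (if j + 1 ≤ S.mx (S.kidB p) then [lp (S.kidB p) (j + 1)] else []))
  else none

def g2 (id t : Nat) : Option (List Nat) :=
  if Nat.blt t 255 then some [ln id (t + 1), lp id t] else none

def g3 (u w : Nat) : Option (List Nat) :=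
  if Nat.blt u 22 && Nat.blt w 22 then some [ln (arcId u w) 1, ln (arcId w u) 1] else none

def g4 (u t w : Nat) : Option (List Nat) :=
  if Nat.blt u 22 && Nat.blt t 22 && Nat.blt w 22 && !(Nat.beq u w) then
    some ([ln (arcId u t) 1, ln (arcId t w) 1] ++ (if S.hasArc u w then [lp (arcId u w) 1] else []) ++
      [lp (yId u w) 1])
  else none

def g5 (u w e : Nat) : Option (List Nat) :=
  if S.closed u && Nat.blt u 22 && Nat.blt w 22 && Nat.blt e 256 then
    some [ln (arcId u w) 1, ln (exId w) e, lp (plId u) e]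
  else none

def g6 (u t : Nat) : Option (List Nat) :=
  if S.closed u && Nat.blt u 22 && Nat.blt t 255 then
    some ((if 0 < t then [ln (S.tG u) t] else []) ++
      (if t + 1 ≤ S.mx (S.tF u) then [lp (S.tF u) (t + 1)] else []))
  else none

def g7 (x : Nat) : Option (List Nat) :=
  if S.present x && Nat.blt x 22 && Nat.blt S.k 255 then
    some (if S.k ≤ S.mx (S.tF x) then [lp (S.tF x) S.k] else [])
  else none

def g8 (i : Nat) : Option (List Nat) :=
  if Nat.blt i 3 && Nat.blt (S.bound i) 255 then some [ln (S.sp i) (S.bound i + 1)] else none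

def g9 (i : Nat) : Option (List Nat) :=
  if (Nat.beq i 3 || Nat.beq i 4) && Nat.blt (S.bound i) 255 then
    some (if S.bound i ≤ S.mx (S.sp i) then [lp (S.sp i) (S.bound i)] else [])
  else none

def g10 (sub i t : Nat) : Option (List Nat) :=
  if Nat.blt t 255 then
    if Nat.beq sub 0 then
      if F.sx.contains i && S.inA i && S.inA (i + 1) then
        some ([ln (S.tx i) t] ++ (if t ≤ S.mx (S.tx (i + 1)) then [lp (S.tx (i + 1)) t] else []))
      else none
    else if F.sz.contains i && S.inB i && S.inB (i + 1) then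
        some ([ln (S.tz i) t] ++ (if t ≤ S.mx (S.tz (i + 1)) then [lp (S.tz (i + 1)) t] else []))
      else none
  else none

def g11 (a : Nat) : Option (List Nat) :=
  if S.inA a && Nat.blt F.minx 255 then
    some (if F.minx ≤ S.mx (S.tx a) then [lp (S.tx a) F.minx] else [])
  else none

def g12 (a x : Nat) : Option (List Nat) :=
  if S.inA a && F.forb.contains x && Nat.ble x S.k && Nat.blt S.k 255 then
    some ((if 0 < x then [ln (S.tx a) x] else []) ++
      (if x + 1 ≤ S.mx (S.tx a) then [lp (S.tx a) (x + 1)] else []) ++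
      (if 0 < S.k - x then [ln (S.ty a) (S.k - x)] else []) ++
      (if S.k - x + 1 ≤ S.mx (S.ty a) then [lp (S.ty a) (S.k - x + 1)] else []))
  else none

def g13 (w : Nat) : Option (List Nat) :=
  if F.hasRoot && Nat.ble 2 w && Nat.blt w (S.k + 1 + S.m) && Nat.blt w 22 then
    some (if F.rootPos S.k w then [lp (arcId 1 w) 1] else [ln (arcId 1 w) 1])
  else none

def g14 (a sub : Nat) : Option (List Nat) :=
  if F.reg && S.inA a then
    if Nat.beq sub 0 then some [lp (S.tx a) 3]
    else if Nat.beq sub 1 then some [ln (S.tx a) 4]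
    else if Nat.beq sub 2 then some [lp (S.ty a) 5]
    else if Nat.beq sub 3 then some [ln (S.ty a) 6]
    else none
  else none

def g15 (x : Nat) : Option (List Nat) :=
  if Nat.blt x 22 then
    if S.inB x then some (S.A.map (fun a => lp (arcId a x) 1))
    else if S.inC x then some (S.B.map (fun b => lp (arcId b x) 1))
    else none
  else none

/-- The clause generator: a tag holds a kind and up to three fields. -/
def gen (tag : Nat) : Option (List Nat) :=
  (fun k f1 f2 f3 =>
    if k < 8 then
      if k < 4 then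
        if k = 0 then g0 S f1 f2 f3 else if k = 1 then g1 S f1 f2 f3 else if k = 2 then g2 f1 f2 else g3 f1 f2
      else
        if k = 4 then g4 S f1 f2 f3 else if k = 5 then g5 S f1 f2 f3 else if k = 6 then g6 S f1 f2 else g7 S f1
    else
      if k < 12 then
        if k = 8 then g8 S f1 else if k = 9 then g9 S f1 else if k = 10 then g10 S F f1 f2 f3 else g11 S F f1
      else
        if k = 12 then g12 S F f1 f2 else if k = 13 then g13 S F f1 else if k = 14 then g14 S F f1 f2 else g15 S f1)
  (tag &&& 15) ((tag >>> 4) &&& 8191) ((tag >>> 17) &&& 255) ((tag >>> 25) &&& 255)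

end Gen

end Vale.Agent.Lib.P038.SatK

noncomputable section
namespace Vale.Agent.Lib.P038.SatK
open Vale.Agent.Lib.P038.Sat

/-- Cases solved by the basic constraints. -/
def flP (k m : Nat) : Flags := ⟨false, 0, 0, 0, [], (List.range (k - 1)).map (· + 1), (List.range (m - 1)).map (· + (k + 1)), false⟩
/-- For `k = 6`: a vertex of type `(2, 4)`. -/
def flA6 : Flags := ⟨true, 2, 4, 0, [], [2, 4, 5], [7, 8, 9], false⟩
/-- For `k = 6`: the main case. -/
def flM6 (x0 : Nat) : Flags :=
  ⟨true, x0, 5, x0, [2], [2, 3, 4, 5].filter (fun i => !(Nat.beq i (1 + x0))), [7, 8, 9, 10], false⟩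

end Vale.Agent.Lib.P038.SatK
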