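import Vale.Agent.Lib.P038.SatK.Bridge
import Vale.Agent.Lib.P038.SatK.Shapes.S1_0_0f
import Vale.Agent.Lib.P038.SatK.Shapes.S2_0_0f
import Vale.Agent.Lib.P038.SatK.Shapes.S2_1_0f
import Vale.Agent.Lib.P038.SatK.Shapes.S3_0_0f
import Vale.Agent.Lib.P038.SatK.Shapes.S3_1_0f
import Vale.Agent.Lib.P038.SatK.Shapes.S3_2_0f
import Vale.Agent.Lib.P038.SatK.Shapes.S4_0_0f
import Vale.Agent.Lib.P038.SatK.Shapes.S4_1_0f
import Vale.Agent.Lib.P038.SatK.Shapes.S4_2_0f
import Vale.Agent.Lib.P038.SatK.Shapes.S4_3_0f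
import Vale.Agent.Lib.P038.SatK.Shapes.S5_0_0f
import Vale.Agent.Lib.P038.SatK.Shapes.S5_1_0f
import Vale.Agent.Lib.P038.SatK.Shapes.S5_2_0f
import Vale.Agent.Lib.P038.SatK.Shapes.S5_3_0f
import Vale.Agent.Lib.P038.SatK.Shapes.S5_4_0f
import Vale.Agent.Lib.P038.SatK.Shapes.S6_0_0f
import Vale.Agent.Lib.P038.SatK.Shapes.S6_1_0f
import Vale.Agent.Lib.P038.SatK.Shapes.S6_2_0f
import Vale.Agent.Lib.P038.SatK.Shapes.S6_3_0f
import Vale.Agent.Lib.P038.SatK.Shapes.S6_4_0f
import Vale.Agent.Lib.P038.SatK.Shapes.S6_5_0f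
import Vale.Agent.Lib.P038.SatK.Shapes.S6_5_0t
import Vale.Agent.Lib.P038.SatK.Shapes.S6_5_1t
import Vale.Agent.Lib.P038.SatK.Shapes.S6_5_2t
import Vale.Agent.Lib.P038.SatK.Shapes.S6_5_3t
import Vale.Agent.Lib.P038.SatK.Shapes.S6_5_4t
import Vale.Agent.Lib.P038.SatK.Shapes.S6_5_5t
import Vale.Agent.Lib.P038.SatK.Shapes.S6_5_6t
/-!
The case analysis for out-degree at most six: a vertex of minimum out-degree `k ≤ 6` in a
counterexample leads to one of the cases refuted by the certificates.
-/
namespace Vale.Agent.Lib.P038.SatK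
open Vale.Agent.Lib.P038.Sat

open Finset Vale.Agent.Lib.P038

variable {V : Type*} [Fintype V] {r : V → V → Prop}

/-- The shapes without a root. -/
def shP : ℕ → ℕ → Shape
  | 1, 0 => sh_1_0_0_f
  | 2, 0 => sh_2_0_0_f
  | 2, 1 => sh_2_1_0_f
  | 3, 0 => sh_3_0_0_f
  | 3, 1 => sh_3_1_0_f
  | 3, 2 => sh_3_2_0_f
  | 4, 0 => sh_4_0_0_f
  | 4, 1 => sh_4_1_0_f
  | 4, 2 => sh_4_2_0_f
  | 4, 3 => sh_4_3_0_f
  | 5, 0 => sh_5_0_0_f
  | 5, 1 => sh_5_1_0_f
  | 5, 2 => sh_5_2_0_f
  | 5, 3 => sh_5_3_0_f
  | 5, 4 => sh_5_4_0_f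
  | 6, 0 => sh_6_0_0_f
  | 6, 1 => sh_6_1_0_f
  | 6, 2 => sh_6_2_0_f
  | 6, 3 => sh_6_3_0_f
  | _, _ => sh_6_4_0_f

/-- The shapes of the main case. -/
def shT6 : ℕ → Shape
  | 0 => sh_6_5_0_t | 1 => sh_6_5_1_t | 2 => sh_6_5_2_t | 3 => sh_6_5_3_t | 4 => sh_6_5_4_t
  | 5 => sh_6_5_5_t | _ => sh_6_5_6_t

theorem shP_spec {k m : ℕ} (hk1 : 1 ≤ k) (hk : k ≤ 6) (hm : m < k) (hne : ¬ (k = 6 ∧ m = 5)) :
    (shP k m).k = k ∧ (shP k m).m = m ∧ (shP k m).c = 0 ∧ (shP k m).lvl3 = false := by
  interval_cases k <;> interval_cases m <;> first | exact ⟨rfl, rfl, rfl, rfl⟩ | exact absurd ⟨rfl, rfl⟩ hne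

theorem shT6_spec {c : ℕ} (h : c ≤ 6) :
    (shT6 c).k = 6 ∧ (shT6 c).m = 5 ∧ (shT6 c).c = c ∧ (shT6 c).lvl3 = true := by
  interval_cases c <;> exact ⟨rfl, rfl, rfl, rfl⟩

open Classical in
theorem xy_sum (hr : ∀ u w, r u w → ¬ r w u) {v a : V} (ha : a ∈ out r v) :
    xr r v a + yr r v a = (out r a).card := by
  unfold xr yr
  rw [← Finset.card_union_of_disjoint]
  · congr 1
    ext z
    simp only [Finset.mem_union, Finset.mem_filter, mem_out']
    constructor
    · rintro (h | h) <;> exact h.2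
    · intro h
      rcases out_of_A hr ha h with h1 | h1
      · exact Or.inl ⟨mem_out'.1 h1, h⟩
      · exact Or.inr ⟨h1, h⟩
  · rw [Finset.disjoint_left]
    intro z h1 h2
    exact disj_out_second (Finset.mem_filter.1 h1).1 (Finset.mem_filter.1 h2).1

open Classical in
theorem yr_le {v a : V} : yr r v a ≤ (second r v).card := Finset.card_filter_le _ _

open Classical in
theorem sum_xr_le (hr : ∀ u w, r u w → ¬ r w u) (U : Finset V) :
    2 * ∑ a ∈ U, (U.filter (r a)).card ≤ U.card * (U.card - 1) := by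
  have h1 : ∑ a ∈ U, (U.filter (r a)).card = ∑ a ∈ U, ∑ z ∈ U, (if r a z then 1 else 0) := by
    apply Finset.sum_congr rfl
    intro a _
    rw [Finset.card_filter]
  have h2 : ∑ a ∈ U, ∑ z ∈ U, (if r a z then 1 else 0) = ∑ a ∈ U, ∑ z ∈ U, (if r z a then 1 else 0) :=
    Finset.sum_comm
  have h3 : ∑ a ∈ U, ∑ z ∈ U, ((if r a z then 1 else 0) + (if r z a then 1 else 0)) ≤ ∑ a ∈ U, (U.card - 1) := by
    apply Finset.sum_le_sum
    intro a ha
    have h4 : ∑ z ∈ U, ((if r a z then 1 else 0) + (if r z a then 1 else 0)) ≤ ∑ z ∈ U.erase a, 1 := by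
      rw [← Finset.add_sum_erase U _ ha]
      have h5 : (if r a a then 1 else 0) + (if r a a then 1 else 0) = 0 := by
        simp [irr hr a]
      rw [h5, Nat.zero_add]
      apply Finset.sum_le_sum
      intro z _
      by_cases h6 : r a z
      · have := hr _ _ h6
        simp [h6, this]
      · by_cases h7 : r z a <;> simp [h6, h7]
    simpa [Finset.card_erase_of_mem ha] using h4
  simp only [Finset.sum_add_distrib] at h3
  rw [← h2] at h3
  rw [h1]
  simp only [Finset.sum_const, smul_eq_mul] at h3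
  omega

theorem xr_avg6 (hr : ∀ u w, r u w → ¬ r w u) {v : V} (hv : (out r v).card = 6) :
    ∑ a ∈ out r v, xr r v a ≤ 15 := by
  classical
  have h := sum_xr_le hr (out r v)
  rw [hv] at h
  unfold xr
  have e : ∑ a ∈ out r v, ((out r v).filter (r a)).card ≤ 15 := by
    omega
  convert e

/-- The core statement for out-degree at most six, with the refutations of the cases as
hypotheses. -/
theorem six_core
    (hP : ∀ k m, 1 ≤ k → k ≤ 6 → m < k → ¬ (k = 6 ∧ m = 5) → ∀ K, Good (shP k m) (flP k m) K → False)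
    (hA : ∀ K, Good sh_6_5_0_f flA6 K → False)
    (hM : ∀ q c, (q = 1 ∨ q = 2) → c ≤ 6 → ∀ K, Good (shT6 c) (flM6 q) K → False)
    (hr : ∀ u w, r u w → ¬ r w u) (hns : ∀ u, (second r u).card < (out r u).card)
    {k : ℕ} (hk1 : 1 ≤ k) (hk : k ≤ 6)
    (hdeg : ∀ u, k ≤ (out r u).card) {v : V} (hv : (out r v).card = k) : False := by
  classical
  have hmk : (second r v).card < k := by
    have := hns v
    omega
  by_cases h65 : k = 6 ∧ (second r v).card = 5
  · obtain ⟨rfl, hm5⟩ := h65
    by_cases h24 : ∃ a, a ∈ out r v ∧ xr r v a = 2 ∧ yr r v a = 4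
    · obtain ⟨a0, ha0, hx, hy⟩ := h24
      obtain ⟨K, hK⟩ := root_good (S := sh_6_5_0_f) (F := flA6) (Cs := []) (by decide) hr hns hdeg hv ha0
        hm5.symm rfl hx.symm hy.symm
        (fun _ _ => Nat.zero_le _) (by intro z _ x hx; simp [flA6] at hx)
        (by
          intro i hi
          simp only [flA6, List.mem_cons, List.not_mem_nil, or_false] at hi
          show 2 ≤ i ∧ i + 1 < 7 ∧ i ≠ 1 + 2
          omega)
        (by
          intro i hi
          simp only [flA6, List.mem_cons, List.not_mem_nil, or_false] at hi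
          show 7 ≤ i ∧ i + 1 < 7 + 5 ∧ i ≠ 6 + 4
          omega)
        rfl List.nodup_nil rfl (by simp) (by simp) (by intro h; cases h) (fun _ => rfl)
      exact hA K hK
    -- the main case
    have hne : (out r v).Nonempty := by
      rw [← Finset.card_pos]; omega
    obtain ⟨a0, ha0, hmin⟩ := Finset.exists_min_image (out r v) (xr r v) hne
    have hsum := xr_avg6 hr hv
    have hq2 : xr r v a0 ≤ 2 := by
      by_contra hc
      have : ∑ a ∈ out r v, 3 ≤ ∑ a ∈ out r v, xr r v a :=
        Finset.sum_le_sum (fun a ha => by have := hmin a ha; omega)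
      simp only [Finset.sum_const, smul_eq_mul, hv] at this
      omega
    have hxy : 6 ≤ xr r v a0 + yr r v a0 := by
      rw [xy_sum hr ha0]
      exact hdeg a0
    have hy5 : yr r v a0 ≤ 5 := by
      rw [← hm5]
      exact yr_le
    have hq1 : xr r v a0 = 1 ∨ xr r v a0 = 2 := by omega
    have hy : yr r v a0 = 5 := by
      by_contra hc
      exact h24 ⟨a0, ha0, by omega, by omega⟩
    set U : Finset V := univ.filter (fun z => z ≠ v ∧ z ∉ out r v ∧ z ∉ second r v ∧ ∃ b, b ∈ second r v ∧ r b z) with hU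
    have hall : ∀ b, b ∈ second r v → r a0 b := by
      have h1 : (second r v).filter (r a0) = second r v := by
        apply Finset.eq_of_subset_of_card_le (Finset.filter_subset _ _)
        rw [hm5]
        have : yr r v a0 = ((second r v).filter (r a0)).card := rfl
        omega
      intro b hb
      rw [← h1] at hb
      exact (Finset.mem_filter.1 hb).2
    have hUsub : U ⊆ second r a0 := by
      intro z hz
      obtain ⟨_, h1, h2, h3, b, hb, hbz⟩ := Finset.mem_filter.1 hz
      rw [mem_second']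
      refine ⟨?_, ?_, b, hall b hb, hbz⟩
      · rintro rfl
        exact h2 ha0
      · intro h4
        rcases out_of_A hr ha0 h4 with h5 | h5
        · exact h2 h5
        · exact h3 h5
    have hc6 : U.card ≤ 6 := by
      have h1 := Finset.card_le_card hUsub
      have h2 := hns a0
      rw [← xy_sum hr ha0] at h2
      omega
    obtain ⟨h0, h1, h2, h3⟩ := shT6_spec hc6
    have hl : ∀ z, z ∈ U.toList ↔ z ∈ U := fun z => Finset.mem_toList
    have hdeg' : ∀ u, (shT6 U.card).k ≤ (out r u).card := by rw [h0]; exact hdeg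
    have hv' : (out r v).card = (shT6 U.card).k := by rw [h0]; exact hv
    obtain ⟨K, hK⟩ := root_good (S := shT6 U.card) (F := flM6 (xr r v a0)) (Cs := U.toList)
      (by rw [h0]; omega) hr hns hdeg' hv' ha0
      (by rw [h1, hm5]) rfl rfl hy.symm hmin
      (by
        intro z hz x hx
        simp only [flM6, List.mem_cons, List.not_mem_nil, or_false] at hx
        subst hx
        rw [h0]
        exact fun h => h24 ⟨z, hz, h.1, h.2⟩)
      (by
        intro i hi
        simp only [flM6, List.mem_filter, List.mem_cons, List.not_mem_nil, or_false] at hi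
        obtain ⟨h4, h5⟩ := hi
        rw [h0]
        refine ⟨by omega, by omega, ?_⟩
        intro h6
        show False
        rw [show (1 + (flM6 (xr r v a0)).x0) = 1 + xr r v a0 from rfl] at h6
        rw [h6] at h5
        simp at h5)
      (by
        intro i hi
        rw [h0, h1]
        simp only [flM6, List.mem_cons, List.not_mem_nil, or_false] at hi
        show 7 ≤ i ∧ i + 1 < 7 + 5 ∧ i ≠ 6 + 5
        omega)
      rfl (Finset.nodup_toList U) (by rw [h2]; exact Finset.length_toList U)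
      (by
        intro z hz
        obtain ⟨_, a, b, c, _⟩ := Finset.mem_filter.1 ((hl z).1 hz)
        exact ⟨a, b, c⟩)
      (by
        intro z hz
        obtain ⟨_, _, _, _, b⟩ := Finset.mem_filter.1 ((hl z).1 hz)
        exact b)
      (by
        intro _ b hb z hbz
        by_cases h4 : z = v
        · exact Or.inl h4
        by_cases h5 : z ∈ out r v
        · exact Or.inr (Or.inl h5)
        by_cases h6 : z ∈ second r v
        · exact Or.inr (Or.inr (Or.inl h6))
        · refine Or.inr (Or.inr (Or.inr ((hl z).2 ?_)))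
          exact Finset.mem_filter.2 ⟨Finset.mem_univ _, h4, h5, h6, b, hb, hbz⟩)
      (by intro h; rw [h3] at h; cases h)
    exact hM _ _ hq1 hc6 K hK
  · obtain ⟨h0, h1, h2, h3⟩ := shP_spec (m := (second r v).card) hk1 hk hmk h65
    have hdeg' : ∀ u, (shP k (second r v).card).k ≤ (out r u).card := by rw [h0]; exact hdeg
    have hv' : (out r v).card = (shP k (second r v).card).k := by rw [h0]; exact hv
    obtain ⟨K, hK⟩ := plain_good (S := shP k (second r v).card) (F := flP k (second r v).card)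
      (by rw [h0]; omega) hr hns hdeg' hv'
      h1 h2 h3 rfl (fun _ _ => Nat.zero_le _) (by intro z _ x hx; simp [flP] at hx)
      (by
        intro i hi
        rw [h0]
        simp only [flP, List.mem_map, List.mem_range] at hi
        obtain ⟨j, hj, rfl⟩ := hi
        omega)
      (by
        intro i hi
        rw [h0, h1]
        simp only [flP, List.mem_map, List.mem_range] at hi
        obtain ⟨j, hj, rfl⟩ := hi
        omega)
      (by intro h; simp [flP] at h)
    exact hP _ _ hk1 hk hmk h65 K hK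

end Vale.Agent.Lib.P038.SatK
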